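import Vale.Agent.P030.H200.Stable3
import Vale.Agent.P030.H782.Iface

/-!
# P030, NV: `LamSt` from Z2
-/

set_option autoImplicit false

open Polynomial

namespace Vale.Agent.P030.H200

open Vale.Agent.P030.H782

noncomputable section

/-- multiplication of the component 6 by `1 - X` -/
def iot : (Fin 8 → ℚ[X]) →ₗ[ℚ[X]] (Fin 8 → ℚ[X]) where
  toFun P := ![P 0, P 1, P 2, P 3, P 4, P 5, (1 - X) * P 6, P 7]
  map_add' P Q := by
    apply vec_ext
    · rfl
    · rfl
    · rfl
    · rfl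
    · rfl
    · rfl
    · show (1 - X) * (P 6 + Q 6) = (1 - X) * P 6 + (1 - X) * Q 6
      ring
    · rfl
  map_smul' r P := by
    apply vec_ext
    · rfl
    · rfl
    · rfl
    · rfl
    · rfl
    · rfl
    · show (1 - X) * (r * P 6) = r * ((1 - X) * P 6)
      ring
    · rfl

theorem iot_0 (P : Fin 8 → ℚ[X]) : iot P 0 = P 0 := rfl
theorem iot_1 (P : Fin 8 → ℚ[X]) : iot P 1 = P 1 := rfl
theorem iot_2 (P : Fin 8 → ℚ[X]) : iot P 2 = P 2 := rfl
theorem iot_3 (P : Fin 8 → ℚ[X]) : iot P 3 = P 3 := rfl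
theorem iot_4 (P : Fin 8 → ℚ[X]) : iot P 4 = P 4 := rfl
theorem iot_5 (P : Fin 8 → ℚ[X]) : iot P 5 = P 5 := rfl
theorem iot_6 (P : Fin 8 → ℚ[X]) : iot P 6 = (1 - X) * P 6 := rfl
theorem iot_7 (P : Fin 8 → ℚ[X]) : iot P 7 = P 7 := rfl

theorem NTt_0 (P : Fin 8 → ℚ[X]) : NTt P 0 = th (P 0) +
    (-(X * (X + 1)) * P 2 + C (1 / 4) * X * P 7) := rfl
theorem NTt_1 (P : Fin 8 → ℚ[X]) : NTt P 1 = th (P 1) +
    (C (1 / 2) * X * (X - 3) * P 4 - C (1 / 2) * X * (X + 1) * P 5) := rfl
theorem NTt_2 (P : Fin 8 → ℚ[X]) : NTt P 2 = th (P 2) +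
    ((X ^ 2 - 1) * P 3 + X * (X - 1) * P 4 - X * (X + 1) * P 5) := rfl
theorem NTt_3 (P : Fin 8 → ℚ[X]) : NTt P 3 = th (P 3) + 0 := rfl
theorem NTt_4 (P : Fin 8 → ℚ[X]) : NTt P 4 = th (P 4) + 0 := rfl
theorem NTt_5 (P : Fin 8 → ℚ[X]) : NTt P 5 = th (P 5) + 0 := rfl
theorem NTt_6 (P : Fin 8 → ℚ[X]) : NTt P 6 = th (P 6) +
    (X * (X + 1) * P 6 - X ^ 2 * P 7) := rfl
theorem NTt_7 (P : Fin 8 → ℚ[X]) : NTt P 7 = th (P 7) +
    ((X ^ 2 - 1) * P 6 + (X - X ^ 2) * P 7) := rfl

theorem th_one_sub_X : th (1 - X : ℚ[X]) = (1 - X) * (X * (X + 1)) := by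
  unfold th
  rw [derivative_sub, derivative_one, derivative_X]
  ring

theorem NT_iot (P : Fin 8 → ℚ[X]) : NT (iot P) = iot (NTt P) := by
  apply vec_ext
  · rw [NT_0, iot_0, iot_0, iot_2, iot_7, NTt_0]; ring
  · rw [NT_1, iot_1, iot_1, iot_4, iot_5, NTt_1]
    have h : (C (1 / 2) : ℚ[X]) * 2 = 1 := by
      rw [show (2 : ℚ[X]) = C 2 from rfl, ← C_mul]; norm_num
    linear_combination (-(X ^ 2 - X) * P 4) * h
  · rw [NT_2, iot_2, iot_2, iot_3, iot_4, iot_5, NTt_2]; ring
  · rw [NT_3, iot_3, iot_3, NTt_3]; ring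
  · rw [NT_4, iot_4, iot_4, NTt_4]; ring
  · rw [NT_5, iot_5, iot_5, NTt_5]; ring
  · rw [NT_6, iot_6, iot_6, iot_7, NTt_6, nF, th_mul, th_one_sub_X]; ring
  · rw [NT_7, iot_6, iot_7, iot_7, NTt_7, nT]; ring

theorem NT_iter_iot (P : Fin 8 → ℚ[X]) (n : ℕ) : NT^[n] (iot P) = iot (NTt^[n] P) := by
  induction n with
  | zero => rfl
  | succ n ih => rw [Function.iterate_succ_apply', Function.iterate_succ_apply', ih, NT_iot]

theorem one_sub_X_ne : (1 - X : ℚ[X]) ≠ 0 := by
  intro h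
  have := congrArg (eval (0 : ℚ)) h
  simp at this

theorem lamSt : LamSt := by
  intro P hP
  have hiP : iot P ≠ 0 := by
    intro h0
    apply hP
    apply vec_ext
    · exact congrFun h0 0
    · exact congrFun h0 1
    · exact congrFun h0 2
    · exact congrFun h0 3
    · exact congrFun h0 4
    · exact congrFun h0 5
    · have h6 : (1 - X) * P 6 = 0 := congrFun h0 6
      exact (mul_eq_zero.mp h6).resolve_left one_sub_X_ne
    · exact congrFun h0 7
  obtain ⟨L, hL, hne, hcoef, hind, -⟩ := Z2 (iot P) hiP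
  refine ⟨L, ⟨hne, ?_, ?_, ?_, ?_, ?_⟩, ?_, ?_⟩
  · by_cases h0 : (Pi.single 0 1 : Fin 8 → ℚ) ∈ L
    · exact Or.inl h0
    · right
      have hall := hL.rk1 h0
      obtain ⟨v, hv, hv0⟩ := Submodule.exists_mem_ne_zero_of_ne_bot hne
      have e0 : ∀ w ∈ L, w 1 = 0 → w = 0 := by
        intro w hw h1
        obtain ⟨h2, h3, h4, h5, h6, h7⟩ := hall w hw
        have hw0 : w = w 0 • (Pi.single 0 1 : Fin 8 → ℚ) := by
          apply const_ext <;> simp [h1, h2, h3, h4, h5, h6, h7]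
        by_cases h00 : w 0 = 0
        · rw [hw0, h00, zero_smul]
        · exfalso
          apply h0
          have := L.smul_mem (w 0)⁻¹ hw
          rw [hw0, smul_smul] at this
          simpa [h00] using this
      have hv1 : v 1 ≠ 0 := fun h => hv0 (e0 v hv h)
      refine ⟨v 0 / v 1, ?_⟩
      have hspan : (![v 0 / v 1, 1, 0, 0, 0, 0, 0, 0] : Fin 8 → ℚ) = (v 1)⁻¹ • v := by
        obtain ⟨h2, h3, h4, h5, h6, h7⟩ := hall v hv
        apply const_ext
        · show v 0 / v 1 = (v 1)⁻¹ * v 0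
          rw [div_eq_inv_mul]
        · show (1 : ℚ) = (v 1)⁻¹ * v 1
          rw [inv_mul_cancel₀ hv1]
        · show (0 : ℚ) = (v 1)⁻¹ * v 2
          rw [h2, mul_zero]
        · show (0 : ℚ) = (v 1)⁻¹ * v 3
          rw [h3, mul_zero]
        · show (0 : ℚ) = (v 1)⁻¹ * v 4
          rw [h4, mul_zero]
        · show (0 : ℚ) = (v 1)⁻¹ * v 5
          rw [h5, mul_zero]
        · show (0 : ℚ) = (v 1)⁻¹ * v 6
          rw [h6, mul_zero]
        · show (0 : ℚ) = (v 1)⁻¹ * v 7
          rw [h7, mul_zero]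
      rw [hspan]
      apply le_antisymm
      · intro w hw
        have h1 : w - (w 1 / v 1) • v = 0 := by
          apply e0 _ (L.sub_mem hw (L.smul_mem _ hv))
          show w 1 - w 1 / v 1 * v 1 = 0
          rw [div_mul_cancel₀ _ hv1, sub_self]
        rw [sub_eq_zero] at h1
        rw [h1, Submodule.mem_span_singleton]
        refine ⟨w 1, ?_⟩
        rw [smul_smul, div_eq_mul_inv]
      · rw [Submodule.span_singleton_le_iff_mem]
        exact L.smul_mem _ hv
  · intro v hv h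
    exact hL.ft ⟨v, hv, h⟩
  · intro v hv
    have h := hL.sD v hv
    have e : (![0, 0, v 3, 0, 0, 0, 0, 0] : Fin 8 → ℚ) =
        v 3 • (Pi.single 2 1 : Fin 8 → ℚ) := by
      apply const_ext <;> simp
    rw [e]; exact h
  · intro v hv
    have h := hL.s6 v hv
    have e : (![0, v 4, v 4, 0, 0, 0, 0, 0] : Fin 8 → ℚ) =
        v 4 • ((Pi.single 1 1 : Fin 8 → ℚ) + Pi.single 2 1) := by
      apply const_ext <;> simp
    rw [e]; exact h
  · intro v hv
    have h := hL.s1 v hv
    have e : (![v 2, (v 4 + v 5) / 2, v 5, 0, 0, 0, 0, 0] : Fin 8 → ℚ) =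
        v 2 • (Pi.single 0 1 : Fin 8 → ℚ) + ((v 4 + v 5) / 2) • Pi.single 1 1
      + v 5 • Pi.single 2 1 := by
      apply const_ext <;> simp
    rw [e]; exact h
  · intro n m
    have h := hcoef n m
    rw [NT_iter_iot] at h
    set Q := NTt^[n] P with hQ
    by_cases h6 : (Pi.single 6 1 : Fin 8 → ℚ) ∈ L
    · have e : (fun j => (Q j).coeff m) =
          (fun j => (iot Q j).coeff m) + (X * Q 6).coeff m • (Pi.single 6 1 : Fin 8 → ℚ) := by
        have gen : ∀ j : Fin 8, j ≠ 6 → (X * Q 6).coeff m * (Pi.single 6 1 : Fin 8 → ℚ) j = 0 := by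
          intro j hj
          rw [Pi.single_eq_of_ne hj, mul_zero]
        apply const_ext
        · show (Q 0).coeff m = (Q 0).coeff m + (X * Q 6).coeff m * (Pi.single 6 1 : Fin 8 → ℚ) 0
          rw [gen 0 (by decide), add_zero]
        · show (Q 1).coeff m = (Q 1).coeff m + (X * Q 6).coeff m * (Pi.single 6 1 : Fin 8 → ℚ) 1
          rw [gen 1 (by decide), add_zero]
        · show (Q 2).coeff m = (Q 2).coeff m + (X * Q 6).coeff m * (Pi.single 6 1 : Fin 8 → ℚ) 2
          rw [gen 2 (by decide), add_zero]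
        · show (Q 3).coeff m = (Q 3).coeff m + (X * Q 6).coeff m * (Pi.single 6 1 : Fin 8 → ℚ) 3
          rw [gen 3 (by decide), add_zero]
        · show (Q 4).coeff m = (Q 4).coeff m + (X * Q 6).coeff m * (Pi.single 6 1 : Fin 8 → ℚ) 4
          rw [gen 4 (by decide), add_zero]
        · show (Q 5).coeff m = (Q 5).coeff m + (X * Q 6).coeff m * (Pi.single 6 1 : Fin 8 → ℚ) 5
          rw [gen 5 (by decide), add_zero]
        · show (Q 6).coeff m = ((1 - X) * Q 6).coeff m +
            (X * Q 6).coeff m * (Pi.single 6 1 : Fin 8 → ℚ) 6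
          rw [Pi.single_eq_same, mul_one, ← coeff_add]
          congr 1
          ring
        · show (Q 7).coeff m = (Q 7).coeff m + (X * Q 6).coeff m * (Pi.single 6 1 : Fin 8 → ℚ) 7
          rw [gen 7 (by decide), add_zero]
      rw [e]
      exact L.add_mem h (L.smul_mem _ h6)
    · -- no F-part
      have hz : ∀ v ∈ L, v 6 = 0 := by
        intro v hv
        by_contra hne6
        exact h6 (hL.ft ⟨v, hv, Or.inl hne6⟩).1
      have hQ6 : Q 6 = 0 := by
        have h1 : (1 - X) * Q 6 = 0 := by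
          ext i
          rw [coeff_zero]
          have h2 := hcoef n i
          rw [NT_iter_iot] at h2
          exact hz _ h2
        exact (mul_eq_zero.mp h1).resolve_left one_sub_X_ne
      have e : (fun j => (Q j).coeff m) = (fun j => (iot Q j).coeff m) := by
        apply const_ext
        · rfl
        · rfl
        · rfl
        · rfl
        · rfl
        · rfl
        · show (Q 6).coeff m = ((1 - X) * Q 6).coeff m
          rw [hQ6, mul_zero]
        · rfl
      rw [e]; exact h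
  · rw [Fintype.linearIndependent_iff] at hind ⊢
    intro g hg
    apply hind g
    have h1 := congrArg iot hg
    rw [map_sum, map_zero] at h1
    rw [← h1]
    apply Finset.sum_congr rfl
    intro i _
    rw [map_smul, NT_iter_iot]

end

end Vale.Agent.P030.H200
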