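import Mathlib

/-!
# P030, non-vanishing, part Z2: stable saturated submodules of the 8-list system

`R = k[u]`, `th f = u(u+1)(u-1) f'`, basis `0:1, 1:l, 2:L, 3:Li2, 4:f6, 5:f7, 6:F, 7:T^ = (1-u) thF`,
`NT P j = th (P j) + sum_i P i * A i j`.
-/

set_option autoImplicit false

open Polynomial

namespace Vale.Agent.P030.H200

variable {k : Type*} [Field k]

noncomputable section

/-- `th = u(u+1)(u-1) d/du`. -/
def th (f : k[X]) : k[X] := X * (X + 1) * (X - 1) * derivative f

theorem th_add (f g : k[X]) : th (f + g) = th f + th g := by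
  unfold th; rw [derivative_add]; ring

theorem th_sub (f g : k[X]) : th (f - g) = th f - th g := by
  unfold th; rw [derivative_sub]; ring

theorem th_neg (f : k[X]) : th (-f) = - th f := by
  unfold th; rw [derivative_neg]; ring

theorem th_mul (f g : k[X]) : th (f * g) = th f * g + f * th g := by
  unfold th; rw [derivative_mul]; ring

@[simp] theorem th_C (c : k) : th (C c) = 0 := by
  unfold th; rw [derivative_C]; ring

@[simp] theorem th_zero : th (0 : k[X]) = 0 := by
  unfold th; rw [derivative_zero]; ring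

theorem th_C_mul (c : k) (f : k[X]) : th (C c * f) = C c * th f := by
  rw [th_mul, th_C]; ring

@[simp] theorem th_eval_zero (f : k[X]) : (th f).eval 0 = 0 := by
  unfold th; simp

@[simp] theorem th_eval_one (f : k[X]) : (th f).eval 1 = 0 := by
  unfold th; simp

@[simp] theorem th_eval_neg_one (f : k[X]) : (th f).eval (-1) = 0 := by
  unfold th; simp

/-- Eigenvalue of a polynomial eigenfunction of `th` at a zero of `u(u+1)(u-1)`. -/
theorem eig_eval {f lam : k[X]} (hf : f ≠ 0) (h : th f = lam * f) (a : k) (q1 : k[X])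
    (hq : (X * (X + 1) * (X - 1) : k[X]) = (X - C a) * q1) :
    lam.eval a = (f.rootMultiplicity a : k) * q1.eval a := by
  obtain ⟨g, hg, hnd⟩ := exists_eq_pow_rootMultiplicity_mul_and_not_dvd f hf a
  set m := f.rootMultiplicity a with hm
  have hga : g.eval a ≠ 0 := by
    intro h0
    exact hnd (dvd_iff_isRoot.mpr h0)
  have hder : (X - C a) * derivative ((X - C a) ^ m) = C (m : k) * (X - C a) ^ m := by
    rw [derivative_X_sub_C_pow]
    rcases m with _ | m
    · simp
    · simp only [Nat.add_sub_cancel, map_natCast]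
      ring
  have key : (X - C a) ^ m * (C (m : k) * q1 * g + X * (X + 1) * (X - 1) * derivative g)
      = (X - C a) ^ m * (lam * g) := by
    have e1 : th f = (X - C a) * derivative ((X - C a) ^ m) * q1 * g
        + (X - C a) ^ m * (X * (X + 1) * (X - 1) * derivative g) := by
      unfold th
      conv_lhs => rw [hg]
      rw [derivative_mul, hq]
      ring
    have e2 : lam * f = (X - C a) ^ m * (lam * g) := by
      conv_lhs => rw [hg]
      ring
    rw [← e2, ← h, e1, hder]
    ring
  have hpow : (X - C a) ^ m ≠ (0 : k[X]) := pow_ne_zero _ (X_sub_C_ne_zero a)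
  have key2 := mul_left_cancel₀ hpow key
  have key3 := congrArg (eval a) key2
  have hq0 : ((X * (X + 1) * (X - 1) : k[X])).eval a = 0 := by
    rw [hq]; simp
  rw [eval_add, eval_mul, eval_mul, eval_mul, hq0, zero_mul, add_zero, eval_mul, eval_C] at key3
  have := mul_right_cancel₀ hga key3
  exact this.symm

variable [CharZero k]
set_option linter.unusedSectionVars false

theorem eig_eval_zero {f lam : k[X]} (hf : f ≠ 0) (h : th f = lam * f) (hl : lam.eval 0 = 0) :
    f.eval 0 ≠ 0 := by
  have := eig_eval hf h 0 ((X + 1) * (X - 1)) (by rw [C_0, sub_zero]; ring)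
  rw [hl] at this
  have h2 : ((X + 1) * (X - 1) : k[X]).eval 0 ≠ 0 := by simp
  have h3 : (f.rootMultiplicity 0 : k) = 0 := by
    rcases mul_eq_zero.mp this.symm with h | h
    · exact h
    · exact absurd h h2
  have h4 : f.rootMultiplicity 0 = 0 := by exact_mod_cast h3
  intro h5
  have := (rootMultiplicity_pos hf).mpr h5
  omega

theorem eig_eval_one {f lam : k[X]} (hf : f ≠ 0) (h : th f = lam * f) (hl : lam.eval 1 = 0) :
    f.eval 1 ≠ 0 := by
  have := eig_eval hf h 1 (X * (X + 1)) (by rw [C_1]; ring)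
  rw [hl] at this
  have h2 : (X * (X + 1) : k[X]).eval 1 ≠ 0 := by
    simp only [eval_mul, eval_X, eval_add, eval_one]
    norm_num
  have h3 : (f.rootMultiplicity 1 : k) = 0 := by
    rcases mul_eq_zero.mp this.symm with h | h
    · exact h
    · exact absurd h h2
  have h4 : f.rootMultiplicity 1 = 0 := by exact_mod_cast h3
  intro h5
  have := (rootMultiplicity_pos hf).mpr h5
  omega

theorem eig_eval_neg_one {f lam : k[X]} (hf : f ≠ 0) (h : th f = lam * f)
    (hl : lam.eval (-1) = 0) : f.eval (-1) ≠ 0 := by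
  have := eig_eval hf h (-1) (X * (X - 1)) (by rw [C_neg, C_1]; ring)
  rw [hl] at this
  have h2 : (X * (X - 1) : k[X]).eval (-1) ≠ 0 := by
    simp only [eval_mul, eval_X, eval_sub, eval_one]
    norm_num
  have h3 : (f.rootMultiplicity (-1) : k) = 0 := by
    rcases mul_eq_zero.mp this.symm with h | h
    · exact h
    · exact absurd h h2
  have h4 : f.rootMultiplicity (-1) = 0 := by exact_mod_cast h3
  intro h5
  have := (rootMultiplicity_pos hf).mpr h5
  omega

/-- conversely: a non-root has eigenvalue zero. -/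
theorem eig_nonroot {f lam : k[X]} (h : th f = lam * f) (a : k)
    (ha : (X * (X + 1) * (X - 1) : k[X]).eval a = 0) (hfa : f.eval a ≠ 0) : lam.eval a = 0 := by
  have h1 := congrArg (eval a) h
  unfold th at h1
  rw [eval_mul, ha, zero_mul, eval_mul] at h1
  rcases mul_eq_zero.mp h1.symm with h2 | h2
  · exact h2
  · exact absurd h2 hfa

/-- primitive part of a vector of polynomials -/
theorem exists_primitive {ι : Type*} [Fintype ι] (w : ι → k[X]) (hw : w ≠ 0) :
    ∃ (d : k[X]) (v c : ι → k[X]), d ≠ 0 ∧ (∀ i, w i = d * v i) ∧ ∑ i, c i * v i = 1 := by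
  classical
  let I : Ideal k[X] := Ideal.span (Set.range w)
  set d := Submodule.IsPrincipal.generator I with hd
  have hmem : d ∈ I := Submodule.IsPrincipal.generator_mem I
  have hspan : Ideal.span {d} = I := Submodule.IsPrincipal.span_singleton_generator I
  have hdiv : ∀ i, ∃ v, w i = d * v := by
    intro i
    have h1 : w i ∈ I := Ideal.subset_span ⟨i, rfl⟩
    rw [← hspan, Ideal.mem_span_singleton] at h1
    exact h1
  choose v hv using hdiv
  obtain ⟨c, hc⟩ := (Ideal.mem_span_range_iff_exists_fun).mp hmem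
  have hd0 : d ≠ 0 := by
    intro h0
    apply hw
    funext i
    rw [hv i, h0, zero_mul]; rfl
  refine ⟨d, v, c, hd0, hv, ?_⟩
  have h2 : d * ∑ i, c i * v i = d * 1 := by
    rw [mul_one, Finset.mul_sum]
    conv_rhs => rw [← hc]
    apply Finset.sum_congr rfl
    intro i _
    rw [hv i]; ring
  exact mul_left_cancel₀ hd0 h2


/-- L5: the residue lemma. -/
theorem residue_aux {h G om : k[X]} (hh : h ≠ 0) (e : h * th G - th h * G = h ^ 2 * om) :
    ∃ (h' G' d lam : k[X]), h = d * h' ∧ G = d * G' ∧ h' ≠ 0 ∧ th h' = lam * h' ∧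
      lam * G' = th G' - h' * om ∧ lam.eval 0 = 0 ∧ lam.eval 1 = 0 ∧ lam.eval (-1) = 0 ∧
      h'.eval 0 ≠ 0 ∧ h'.eval 1 ≠ 0 ∧ h'.eval (-1) ≠ 0 := by
  have hw : (![h, G] : Fin 2 → k[X]) ≠ 0 := by
    intro h0
    exact hh (by simpa using congrFun h0 0)
  obtain ⟨d, v, c, hd, hv, hc⟩ := exists_primitive _ hw
  have hv0 : h = d * v 0 := hv 0
  have hv1 : G = d * v 1 := hv 1
  rw [Fin.sum_univ_two] at hc
  set h' := v 0 with hh'
  set G' := v 1 with hG'
  have hh0 : h' ≠ 0 := by
    intro h0; apply hh; rw [hv0, h0, mul_zero]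
  have e2 : h' * th G' - th h' * G' = h' ^ 2 * om := by
    have : d ^ 2 * (h' * th G' - th h' * G') = d ^ 2 * (h' ^ 2 * om) := by
      rw [hv0, hv1, th_mul, th_mul] at e
      linear_combination e
    exact mul_left_cancel₀ (pow_ne_zero 2 hd) this
  set lam := c 0 * th h' + c 1 * (th G' - h' * om) with hlam
  have e3 : th h' = lam * h' := by
    have : th h' = (c 0 * h' + c 1 * G') * th h' := by rw [hc, one_mul]
    rw [hlam]
    linear_combination this - c 1 * e2
  have e4 : lam * G' = th G' - h' * om := by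
    have : h' * (lam * G') = h' * (th G' - h' * om) := by
      linear_combination (-G') * e3 - e2
    exact mul_left_cancel₀ hh0 this
  have hpt : ∀ a : k, (X * (X + 1) * (X - 1) : k[X]).eval a = 0 →
      (lam.eval a = 0 → h'.eval a ≠ 0) → lam.eval a = 0 := by
    intro a ha h1
    by_cases h2 : h'.eval a = 0
    · -- G'(a) ≠ 0
      have h3 : G'.eval a ≠ 0 := by
        intro h4
        have := congrArg (eval a) hc
        simp [h2, h4] at this
      have h5 := congrArg (eval a) e4
      rw [eval_mul, eval_sub, eval_mul, h2, zero_mul, sub_zero] at h5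
      have h6 : (th G').eval a = 0 := by unfold th; rw [eval_mul, ha, zero_mul]
      rw [h6] at h5
      rcases mul_eq_zero.mp h5 with h7 | h7
      · exact h7
      · exact absurd h7 h3
    · exact eig_nonroot e3 a ha h2
  have l0 : lam.eval 0 = 0 := hpt 0 (by simp) (fun h => eig_eval_zero hh0 e3 h)
  have l1 : lam.eval 1 = 0 := hpt 1 (by simp) (fun h => eig_eval_one hh0 e3 h)
  have l2 : lam.eval (-1) = 0 := hpt (-1) (by simp) (fun h => eig_eval_neg_one hh0 e3 h)
  exact ⟨h', G', d, lam, hv0, hv1, hh0, e3, e4, l0, l1, l2, eig_eval_zero hh0 e3 l0,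
    eig_eval_one hh0 e3 l1, eig_eval_neg_one hh0 e3 l2⟩

theorem residue_zero {h G om : k[X]} (hh : h ≠ 0) (e : h * th G - th h * G = h ^ 2 * om) :
    om.eval 0 = 0 ∧ om.eval 1 = 0 ∧ om.eval (-1) = 0 := by
  obtain ⟨h', G', d, lam, -, -, hh0, e3, e4, l0, l1, l2, n0, n1, n2⟩ := residue_aux hh e
  have key : ∀ a : k, (X * (X + 1) * (X - 1) : k[X]).eval a = 0 → lam.eval a = 0 →
      h'.eval a ≠ 0 → om.eval a = 0 := by
    intro a ha h1 h2
    have h5 := congrArg (eval a) e4
    rw [eval_mul, eval_sub, eval_mul, h1, zero_mul] at h5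
    have h6 : (th G').eval a = 0 := by unfold th; rw [eval_mul, ha, zero_mul]
    rw [h6, zero_sub] at h5
    rcases mul_eq_zero.mp (neg_eq_zero.mp h5.symm) with h7 | h7
    · exact absurd h7 h2
    · exact h7
  exact ⟨key 0 (by simp) l0 n0, key 1 (by simp) l1 n1, key (-1) (by simp) l2 n2⟩

theorem th_eq_zero {f : k[X]} (h : th f = 0) : ∃ c : k, f = C c := by
  have h1 : derivative f = 0 := by
    unfold th at h
    rcases mul_eq_zero.mp h with h2 | h2
    · exfalso
      have h3 := congrArg (eval (2 : k)) h2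
      simp only [eval_mul, eval_X, eval_add, eval_sub, eval_one, eval_zero] at h3
      norm_num at h3
    · exact h2
  exact ⟨f.coeff 0, eq_C_of_derivative_eq_zero h1⟩

theorem quad_form {f : k[X]} (hd : natDegree f ≤ 2) :
    f = C (f.coeff 2) * X ^ 2 + C (f.coeff 1) * X + C (f.coeff 0) := by
  exact eq_quadratic_of_degree_le_two (natDegree_le_iff_degree_le.mp hd)

theorem eq_zero_of_quadratic {f : k[X]} (hd : natDegree f ≤ 2) (l0 : f.eval 0 = 0)
    (l1 : f.eval 1 = 0) (l2 : f.eval (-1) = 0) : f = 0 := by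
  have e := quad_form hd
  rw [e] at l0 l1 l2
  simp only [eval_add, eval_mul, eval_C, eval_pow, eval_X, mul_zero, zero_add, one_pow, mul_one,
    ne_eq, OfNat.ofNat_ne_zero, not_false_eq_true, zero_pow] at l0 l1 l2
  have c0 : f.coeff 0 = 0 := l0
  have c2 : f.coeff 2 = 0 := by linear_combination (l1 + l2) / 2 - c0
  have c1 : f.coeff 1 = 0 := by linear_combination (l1 - l2) / 2
  rw [e, c0, c1, c2]; simp

/-- A polynomial eigenfunction with eigenvalue vanishing at `0, 1, -1` is constant. -/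
theorem eig_const {f lam : k[X]} (hf : f ≠ 0) (h : th f = lam * f) (l0 : lam.eval 0 = 0)
    (l1 : lam.eval 1 = 0) (l2 : lam.eval (-1) = 0) : lam = 0 := by
  by_contra hne
  have hdeg : natDegree (lam * f) ≤ 2 + natDegree f := by
    rw [← h]
    unfold th
    rcases Nat.eq_zero_or_pos f.natDegree with h0 | h0
    · have : derivative f = 0 := by
        rw [eq_C_of_natDegree_eq_zero h0, derivative_C]
      rw [this]; simp
    · have e1 : natDegree (X * (X + 1) * (X - 1) : k[X]) ≤ 3 := by compute_degree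
      have e2 := natDegree_derivative_lt (p := f) (by omega)
      calc natDegree (X * (X + 1) * (X - 1) * derivative f)
          ≤ natDegree (X * (X + 1) * (X - 1) : k[X]) + natDegree (derivative f) :=
            natDegree_mul_le
        _ ≤ 2 + natDegree f := by omega
  rw [natDegree_mul hne hf] at hdeg
  have hd2 : natDegree lam ≤ 2 := by omega
  apply hne
  exact eq_zero_of_quadratic hd2 l0 l1 l2

theorem residue_const {h G : k[X]} (hh : h ≠ 0) (e : h * th G - th h * G = 0) :
    ∃ c : k, G = C c * h := by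
  have e' : h * th G - th h * G = h ^ 2 * 0 := by rw [e, mul_zero]
  obtain ⟨h', G', d, lam, hd, hG, hh0, e3, e4, l0, l1, l2, n0, n1, n2⟩ := residue_aux hh e'
  have hl : lam = 0 := eig_const hh0 e3 l0 l1 l2
  rw [hl, zero_mul] at e3 e4
  rw [mul_zero, sub_zero] at e4
  obtain ⟨c1, hc1⟩ := th_eq_zero e3
  obtain ⟨c2, hc2⟩ := th_eq_zero e4.symm
  have hc10 : c1 ≠ 0 := by
    intro h0; apply hh0; rw [hc1, h0, C_0]
  refine ⟨c2 / c1, ?_⟩
  rw [hd, hG, hc1, hc2]
  have : (C (c2 / c1) * C c1 : k[X]) = C c2 := by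
    rw [← C_mul, div_mul_cancel₀ _ hc10]
  linear_combination (-d) * this

/-- F-component of `NT` (uses only the F,T components). -/
def nF (a b : k[X]) : k[X] := th a - X ^ 2 * (1 - X) * b

/-- T-component of `NT` (uses only the F,T components). -/
def nT (a b : k[X]) : k[X] := th b - (X + 1) * a + (X - X ^ 2) * b

theorem nF_smul (d a b : k[X]) : nF (d * a) (d * b) = th d * a + d * nF a b := by
  unfold nF; rw [th_mul]; ring

theorem nT_smul (d a b : k[X]) : nT (d * a) (d * b) = th d * b + d * nT a b := by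
  unfold nT; rw [th_mul]; ring

theorem ft_degree {a b lam : k[X]} (hb : b ≠ 0) (hF : nF a b = lam * a) (hT : nT a b = lam * b)
    (l0 : lam.eval 0 = 0) (l1 : lam.eval 1 = 0) (a0 : a.eval 0 = 0) (a1 : a.eval 1 = 0)
    (l2 : lam.eval (-1) = 0 ∨ lam.eval (-1) = -2) : False := by
  -- M + 1 = max (deg a) (deg b + 1)
  obtain ⟨M, hM1, hM2, hM3⟩ : ∃ M : ℕ, natDegree a ≤ M + 1 ∧ natDegree b ≤ M ∧
      (natDegree a = M + 1 ∨ natDegree b = M) := by
    refine ⟨max (natDegree a - 1) (natDegree b), ?_, ?_, ?_⟩ <;> omega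
  have hdeg : natDegree lam ≤ 2 := by
    by_cases hl : lam = 0
    · rw [hl]; simp
    have e1 : natDegree (X * (X + 1) * (X - 1) : k[X]) ≤ 3 := by compute_degree
    have e2 : natDegree (X ^ 2 * (1 - X) : k[X]) ≤ 3 := by compute_degree
    have e3 : natDegree (X + 1 : k[X]) ≤ 1 := by compute_degree
    have e4 : natDegree (X - X ^ 2 : k[X]) ≤ 2 := by compute_degree
    have d1 : natDegree (derivative a) ≤ M := by
      have := natDegree_derivative_le a; omega
    have d2 : natDegree (X * (X + 1) * (X - 1) * derivative b) ≤ M + 2 := by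
      rcases Nat.eq_zero_or_pos b.natDegree with h0 | h0
      · have : derivative b = 0 := by rw [eq_C_of_natDegree_eq_zero h0, derivative_C]
        rw [this]; simp
      · have := natDegree_derivative_lt (p := b) (by omega)
        refine natDegree_mul_le.trans ?_
        omega
    rcases hM3 with h | h
    · have ha : a ≠ 0 := by
        intro h0; rw [h0, natDegree_zero] at h; omega
      have e5 : natDegree (nF a b) ≤ M + 3 := by
        unfold nF th
        refine (natDegree_sub_le _ _).trans (max_le ?_ ?_)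
        · refine natDegree_mul_le.trans ?_; omega
        · refine natDegree_mul_le.trans ?_; omega
      rw [hF, natDegree_mul hl ha] at e5
      omega
    · have e5 : natDegree (nT a b) ≤ M + 2 := by
        unfold nT th
        refine (natDegree_add_le _ _).trans (max_le ((natDegree_sub_le _ _).trans (max_le ?_ ?_)) ?_)
        · exact d2
        · refine natDegree_mul_le.trans ?_; omega
        · refine natDegree_mul_le.trans ?_; omega
      rw [hT, natDegree_mul hl hb] at e5
      omega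
  have hq := quad_form hdeg
  set c2 := lam.coeff 2 with hc2
  set c1 := lam.coeff 1 with hc1
  set c0 := lam.coeff 0 with hc0
  rw [hq] at l0 l1 l2
  simp only [eval_add, eval_mul, eval_C, eval_pow, eval_X, mul_zero, zero_add, one_pow, mul_one,
    ne_eq, OfNat.ofNat_ne_zero, not_false_eq_true, zero_pow] at l0 l1 l2
  -- coefficient equations
  have ca1 : a.coeff (M + 2) = 0 := coeff_eq_zero_of_natDegree_lt (by omega)
  have ca2 : a.coeff (M + 3) = 0 := coeff_eq_zero_of_natDegree_lt (by omega)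
  have cb1 : b.coeff (M + 1) = 0 := coeff_eq_zero_of_natDegree_lt (by omega)
  have cb2 : b.coeff (M + 2) = 0 := coeff_eq_zero_of_natDegree_lt (by omega)
  have E1 : ((M : k) + 1) * a.coeff (M + 1) + b.coeff M = c2 * a.coeff (M + 1) := by
    have h1 : nF a b = X ^ 3 * derivative a - X * derivative a - X ^ 2 * b + X ^ 3 * b := by
      unfold nF th; ring
    have h2 : lam * a = C c2 * (X ^ 2 * a) + C c1 * (X ^ 1 * a) + C c0 * a := by
      conv_lhs => rw [hq]
      ring
    rw [h1, h2] at hF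
    have h3 := congrArg (fun p => coeff p (M + 3)) hF
    simp only [coeff_add, coeff_sub, coeff_C_mul] at h3
    have x1 : (X ^ 3 * derivative a).coeff (M + 3) = a.coeff (M + 1) * ((M : k) + 1) := by
      rw [coeff_X_pow_mul, coeff_derivative]
    have x2 : (X * derivative a).coeff (M + 3) = 0 := by
      rw [show M + 3 = (M + 2) + 1 from rfl, coeff_X_mul, coeff_derivative,
        show M + 2 + 1 = M + 3 from rfl, ca2, zero_mul]
    have x3 : (X ^ 2 * b).coeff (M + 3) = 0 := by
      rw [show M + 3 = (M + 1) + 2 from rfl, coeff_X_pow_mul, cb1]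
    have x4 : (X ^ 3 * b).coeff (M + 3) = b.coeff M := by rw [coeff_X_pow_mul]
    have x5 : (X ^ 2 * a).coeff (M + 3) = a.coeff (M + 1) := by
      rw [show M + 3 = (M + 1) + 2 from rfl, coeff_X_pow_mul]
    have x6 : (X ^ 1 * a).coeff (M + 3) = 0 := by
      rw [show M + 3 = (M + 2) + 1 from rfl, coeff_X_pow_mul, ca1]
    rw [x1, x2, x3, x4, x5, x6, ca2] at h3
    linear_combination h3
  have E2 : ((M : k) - 1) * b.coeff M - a.coeff (M + 1) = c2 * b.coeff M := by
    have h1 : nT a b = X ^ 3 * derivative b - X * derivative b - X * a - a + X * b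
        - X ^ 2 * b := by
      unfold nT th; ring
    have h2 : lam * b = C c2 * (X ^ 2 * b) + C c1 * (X ^ 1 * b) + C c0 * b := by
      conv_lhs => rw [hq]
      ring
    rw [h1, h2] at hT
    have h3 := congrArg (fun p => coeff p (M + 2)) hT
    simp only [coeff_add, coeff_sub, coeff_C_mul] at h3
    have x1 : (X ^ 3 * derivative b).coeff (M + 2) = b.coeff M * (M : k) := by
      rcases M with _ | M
      · rw [coeff_X_pow_mul']
        simp
      · rw [show M + 1 + 2 = M + 3 from rfl, coeff_X_pow_mul, coeff_derivative]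
        push_cast; ring
    have x2 : (X * derivative b).coeff (M + 2) = 0 := by
      rw [show M + 2 = (M + 1) + 1 from rfl, coeff_X_mul, coeff_derivative,
        show M + 1 + 1 = M + 2 from rfl, cb2, zero_mul]
    have x3 : (X * a).coeff (M + 2) = a.coeff (M + 1) := by
      rw [show M + 2 = (M + 1) + 1 from rfl, coeff_X_mul]
    have x4 : (X * b).coeff (M + 2) = 0 := by
      rw [show M + 2 = (M + 1) + 1 from rfl, coeff_X_mul, cb1]
    have x5 : (X ^ 2 * b).coeff (M + 2) = b.coeff M := by rw [coeff_X_pow_mul]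
    have x6 : (X ^ 1 * b).coeff (M + 2) = 0 := by
      rw [show M + 2 = (M + 1) + 1 from rfl, coeff_X_pow_mul, cb1]
    rw [x1, x2, x3, x4, x5, x6, ca1, cb2] at h3
    linear_combination h3
  have hft : a.coeff (M + 1) ≠ 0 := by
    intro h0
    rw [h0] at E1
    have : b.coeff M = 0 := by linear_combination E1
    rcases hM3 with h | h
    · rw [← h] at h0
      have ha : a = 0 := by
        rwa [coeff_natDegree, leadingCoeff_eq_zero] at h0
      rw [ha, natDegree_zero] at h
      omega
    · rw [← h, coeff_natDegree, leadingCoeff_eq_zero] at this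
      exact hb this
  have hm : (M : k) = c2 := by
    have h4 : ((M : k) - c2) ^ 2 * a.coeff (M + 1) = 0 := by
      linear_combination ((M : k) - 1 - c2) * E1 - E2
    rcases mul_eq_zero.mp h4 with h5 | h5
    · exact sub_eq_zero.mp (pow_eq_zero_iff (two_ne_zero) |>.mp h5)
    · exact absurd h5 hft
  have hM0 : M = 0 := by
    have h6 : 2 * c2 = 0 ∨ 2 * c2 = -2 := by
      rcases l2 with h | h
      · left; linear_combination h + l1 - 2 * l0
      · right; linear_combination h + l1 - 2 * l0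
    rw [← hm] at h6
    rcases h6 with h | h
    · have : ((2 * M : ℕ) : k) = 0 := by push_cast; exact h
      have := Nat.cast_eq_zero.mp this
      omega
    · have : ((2 * M + 2 : ℕ) : k) = 0 := by push_cast; linear_combination h
      have := Nat.cast_eq_zero.mp this
      omega
  subst hM0
  -- deg a ≤ 1 and a(0) = a(1) = 0
  have ha : a = C (a.coeff 1) * X + C (a.coeff 0) := eq_X_add_C_of_natDegree_le_one (by omega)
  rw [ha] at a0 a1
  simp only [eval_add, eval_mul, eval_C, eval_X, mul_zero, zero_add, mul_one] at a0 a1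
  apply hft
  show a.coeff 1 = 0
  linear_combination a1 - a0

/-- L2: the `(F,T)` block has no submodule of rank one. -/
theorem ft_irred {a b : k[X]} (e : a * nT a b = b * nF a b) : a = 0 ∧ b = 0 := by
  by_contra hne
  have hw : (![a, b] : Fin 2 → k[X]) ≠ 0 := by
    intro h0
    exact hne ⟨by simpa using congrFun h0 0, by simpa using congrFun h0 1⟩
  obtain ⟨d, v, c, hd, hv, hc⟩ := exists_primitive _ hw
  have hv0 : a = d * v 0 := hv 0
  have hv1 : b = d * v 1 := hv 1
  rw [Fin.sum_univ_two] at hc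
  set a' := v 0 with hh'
  set b' := v 1 with hG'
  have e2 : a' * nT a' b' = b' * nF a' b' := by
    have : d ^ 2 * (a' * nT a' b') = d ^ 2 * (b' * nF a' b') := by
      rw [hv0, hv1, nF_smul, nT_smul] at e
      linear_combination e
    exact mul_left_cancel₀ (pow_ne_zero 2 hd) this
  set lam := c 0 * nF a' b' + c 1 * nT a' b' with hlam
  have eF : nF a' b' = lam * a' := by
    rw [hlam]
    linear_combination (-(nF a' b')) * hc - c 1 * e2
  have eT : nT a' b' = lam * b' := by
    rw [hlam]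
    linear_combination (-(nT a' b')) * hc + c 0 * e2
  have hb' : b' ≠ 0 := by
    intro h0
    have h1 : (X + 1) * a' = 0 := by
      have := eT
      rw [h0] at this
      unfold nT at this
      rw [th_zero] at this
      linear_combination -this
    have h2 : a' = 0 := by
      rcases mul_eq_zero.mp h1 with h | h
      · exfalso
        have := congrArg (eval (0 : k)) h
        simp at this
      · exact h
    rw [h0, h2] at hc
    simp at hc
  have hcE : ∀ x : k, (c 0).eval x * a'.eval x + (c 1).eval x * b'.eval x = 1 := by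
    intro x
    have := congrArg (eval x) hc
    simpa using this
  have F0 : lam.eval 0 * a'.eval 0 = 0 := by
    have := congrArg (eval (0 : k)) eF
    unfold nF at this
    simp only [eval_sub, th_eval_zero, eval_mul, eval_pow, eval_X, eval_one] at this
    linear_combination -this
  have T0 : lam.eval 0 * b'.eval 0 = - a'.eval 0 := by
    have := congrArg (eval (0 : k)) eT
    unfold nT at this
    simp only [eval_sub, eval_add, th_eval_zero, eval_mul, eval_pow, eval_X, eval_one] at this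
    linear_combination -this
  have F1 : lam.eval 1 * a'.eval 1 = 0 := by
    have := congrArg (eval (1 : k)) eF
    unfold nF at this
    simp only [eval_sub, th_eval_one, eval_mul, eval_pow, eval_X, eval_one] at this
    linear_combination -this
  have T1 : lam.eval 1 * b'.eval 1 = - 2 * a'.eval 1 := by
    have := congrArg (eval (1 : k)) eT
    unfold nT at this
    simp only [eval_sub, eval_add, th_eval_one, eval_mul, eval_pow, eval_X, eval_one] at this
    linear_combination -this
  have F2 : lam.eval (-1) * a'.eval (-1) = - 2 * b'.eval (-1) := by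
    have := congrArg (eval (-1 : k)) eF
    unfold nF at this
    simp only [eval_sub, th_eval_neg_one, eval_mul, eval_pow, eval_X, eval_one] at this
    linear_combination -this
  have T2 : lam.eval (-1) * b'.eval (-1) = - 2 * b'.eval (-1) := by
    have := congrArg (eval (-1 : k)) eT
    unfold nT at this
    simp only [eval_sub, eval_add, th_eval_neg_one, eval_mul, eval_pow, eval_X, eval_one] at this
    linear_combination -this
  have l0 : lam.eval 0 = 0 := by
    by_contra h0
    have h1 : a'.eval 0 = 0 := (mul_eq_zero.mp F0).resolve_left h0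
    rw [h1, neg_zero] at T0
    have h2 : b'.eval 0 = 0 := (mul_eq_zero.mp T0).resolve_left h0
    have := hcE 0
    rw [h1, h2] at this
    simp at this
  have l1 : lam.eval 1 = 0 := by
    by_contra h0
    have h1 : a'.eval 1 = 0 := (mul_eq_zero.mp F1).resolve_left h0
    rw [h1, mul_zero] at T1
    have h2 : b'.eval 1 = 0 := (mul_eq_zero.mp T1).resolve_left h0
    have := hcE 1
    rw [h1, h2] at this
    simp at this
  have a0 : a'.eval 0 = 0 := by rw [l0, zero_mul] at T0; exact neg_eq_zero.mp T0.symm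
  have a1 : a'.eval 1 = 0 := by
    rw [l1, zero_mul] at T1
    have h2 : (-2 : k) ≠ 0 := by norm_num
    exact (mul_eq_zero.mp T1.symm).resolve_left h2
  have l2 : lam.eval (-1) = 0 ∨ lam.eval (-1) = -2 := by
    by_cases hb1 : b'.eval (-1) = 0
    · left
      rw [hb1, mul_zero] at F2
      rcases mul_eq_zero.mp F2 with h | h
      · exact h
      · exfalso
        have := hcE (-1)
        rw [h, hb1] at this
        simp at this
    · right
      exact mul_right_cancel₀ hb1 T2
  exact ft_degree hb' eF eT l0 l1 a0 a1 l2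

/-- L4: the extension of `(F,T)` by the constants does not split. -/
theorem nonsplit {h a b : k[X]} (hh : h ≠ 0)
    (eF : h * th a - th h * a = h * (-(X + 1) * b))
    (eT : h * th b - th h * b = h * ((X - X ^ 2) * b - X ^ 2 * (1 - X) * a + C (1 / 4) * X * h)) :
    False := by
  have hw : (![h, a, b] : Fin 3 → k[X]) ≠ 0 := by
    intro h0
    exact hh (by simpa using congrFun h0 0)
  obtain ⟨d, v, c, hd, hv, hc⟩ := exists_primitive _ hw
  have hv0 : h = d * v 0 := hv 0
  have hv1 : a = d * v 1 := hv 1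
  have hv2 : b = d * v 2 := hv 2
  rw [Fin.sum_univ_three] at hc
  set h' := v 0
  set a' := v 1
  set b' := v 2
  have hh0 : h' ≠ 0 := by
    intro h0; apply hh; rw [hv0, h0, mul_zero]
  have eF' : h' * th a' - th h' * a' = h' * (-(X + 1) * b') := by
    have : d ^ 2 * (h' * th a' - th h' * a') = d ^ 2 * (h' * (-(X + 1) * b')) := by
      rw [hv0, hv1, hv2, th_mul, th_mul] at eF
      linear_combination eF
    exact mul_left_cancel₀ (pow_ne_zero 2 hd) this
  have eT' : h' * th b' - th h' * b' =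
      h' * ((X - X ^ 2) * b' - X ^ 2 * (1 - X) * a' + C (1 / 4) * X * h') := by
    have : d ^ 2 * (h' * th b' - th h' * b') =
        d ^ 2 * (h' * ((X - X ^ 2) * b' - X ^ 2 * (1 - X) * a' + C (1 / 4) * X * h')) := by
      rw [hv0, hv1, hv2, th_mul, th_mul] at eT
      linear_combination eT
    exact mul_left_cancel₀ (pow_ne_zero 2 hd) this
  set rF := th a' - (-(X + 1) * b') with hrF
  set rT := th b' - ((X - X ^ 2) * b' - X ^ 2 * (1 - X) * a' + C (1 / 4) * X * h') with hrT
  set lam := c 0 * th h' + c 1 * rF + c 2 * rT with hlam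
  have e0 : th h' = lam * h' := by
    rw [hlam, hrF, hrT]
    linear_combination (-(th h')) * hc - c 1 * eF' - c 2 * eT'
  have e1 : rF = lam * a' := by
    have : h' * rF = h' * (lam * a') := by
      rw [hrF]; linear_combination eF' + a' * e0
    exact mul_left_cancel₀ hh0 this
  have e2 : rT = lam * b' := by
    have : h' * rT = h' * (lam * b') := by
      rw [hrT]; linear_combination eT' + b' * e0
    exact mul_left_cancel₀ hh0 this
  have hcE := congrArg (eval (1 : k)) hc
  simp only [eval_add, eval_mul, eval_one] at hcE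
  have F0 : 0 = lam.eval 1 * h'.eval 1 := by
    have := congrArg (eval (1 : k)) e0
    simpa using this
  have F1 : 2 * b'.eval 1 = lam.eval 1 * a'.eval 1 := by
    have := congrArg (eval (1 : k)) e1
    rw [hrF] at this
    simp only [eval_sub, eval_neg, eval_add, th_eval_one, eval_mul, eval_X,
      eval_one] at this
    linear_combination this
  have F2 : - (1 / 4) * h'.eval 1 = lam.eval 1 * b'.eval 1 := by
    have := congrArg (eval (1 : k)) e2
    rw [hrT] at this
    simp only [eval_sub, eval_add, th_eval_one, eval_mul, eval_pow, eval_X,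
      eval_one, eval_C] at this
    linear_combination this
  by_cases hl : lam.eval 1 = 0
  · rw [hl, zero_mul] at F2
    have h1 : h'.eval 1 = 0 := by
      have h2 : (-(1 / 4) : k) ≠ 0 := by norm_num
      exact (mul_eq_zero.mp F2).resolve_left h2
    exact eig_eval_one hh0 e0 hl h1
  · have h1 : h'.eval 1 = 0 := (mul_eq_zero.mp F0.symm).resolve_left hl
    rw [h1, mul_zero] at F2
    have h2 : b'.eval 1 = 0 := (mul_eq_zero.mp F2.symm).resolve_left hl
    rw [h2, mul_zero] at F1
    have h3 : a'.eval 1 = 0 := (mul_eq_zero.mp F1.symm).resolve_left hl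
    rw [h1, h2, h3] at hcE
    simp at hcE

/-! ### constant coefficient vectors -/

/-- coefficient vector of degree `m`, as a constant vector. -/
def cv {ι : Type*} (w : ι → k[X]) (m : ℕ) : ι → k[X] := fun i => C ((w i).coeff m)

theorem mem_of_cv {ι : Type*} [Fintype ι] (M : Submodule k[X] (ι → k[X])) (w : ι → k[X])
    (h : ∀ m, cv w m ∈ M) : w ∈ M := by
  classical
  set N := Finset.univ.sup (fun i => (w i).natDegree) with hN
  have hw : w = ∑ m ∈ Finset.range (N + 1), (X ^ m : k[X]) • cv w m := by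
    funext i
    rw [Finset.sum_apply]
    have h1 : (w i).natDegree < N + 1 :=
      Nat.lt_succ_of_le (Finset.le_sup (f := fun i => (w i).natDegree) (Finset.mem_univ i))
    conv_lhs => rw [(w i).as_sum_range' (N + 1) h1]
    apply Finset.sum_congr rfl
    intro m _
    rw [Pi.smul_apply, smul_eq_mul, ← C_mul_X_pow_eq_monomial]
    show C ((w i).coeff m) * X ^ m = X ^ m * C ((w i).coeff m)
    ring
  rw [hw]
  exact Submodule.sum_mem _ fun m _ => M.smul_mem _ (h m)

theorem cv_mem_of_deriv {ι : Type*} [Fintype ι] (M : Submodule k[X] (ι → k[X]))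
    (hd : ∀ f ∈ M, (fun i => derivative (f i)) ∈ M) (N : ℕ) :
    ∀ f ∈ M, (∀ i, (f i).natDegree ≤ N) → ∀ m, cv f m ∈ M := by
  induction N with
  | zero =>
    intro f hf hN m
    have h0 : ∀ i, f i = C ((f i).coeff 0) := fun i =>
      eq_C_of_natDegree_le_zero (hN i)
    rcases m with _ | m
    · have : cv f 0 = f := by
        funext i; exact (h0 i).symm
      rw [this]; exact hf
    · have : cv f (m + 1) = 0 := by
        funext i
        show C ((f i).coeff (m + 1)) = 0
        rw [h0 i, coeff_C_succ, C_0]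
      rw [this]; exact M.zero_mem
  | succ N ih =>
    intro f hf hN
    have h1 : ∀ m, cv f (m + 1) ∈ M := by
      intro m
      have h2 := ih _ (hd f hf) (fun i => by
        have := natDegree_derivative_le (f i)
        have := hN i
        omega) m
      have h3 : cv f (m + 1) = C (((m : k) + 1)⁻¹) • cv (fun i => derivative (f i)) m := by
        funext i
        show C ((f i).coeff (m + 1)) = C (((m : k) + 1)⁻¹) * C ((derivative (f i)).coeff m)
        rw [← C_mul, coeff_derivative]
        congr 1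
        have : (m : k) + 1 ≠ 0 := by exact_mod_cast Nat.succ_ne_zero m
        field_simp
      rw [h3]
      exact M.smul_mem _ h2
    intro m
    rcases m with _ | m
    · have h4 : (fun i => divX (f i)) ∈ M := by
        apply mem_of_cv
        intro m
        have : cv (fun i => divX (f i)) m = cv f (m + 1) := by
          funext i
          show C ((divX (f i)).coeff m) = C ((f i).coeff (m + 1))
          rw [coeff_divX]
        rw [this]; exact h1 m
      have h5 : cv f 0 = f - (X : k[X]) • (fun i => divX (f i)) := by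
        funext i
        show C ((f i).coeff 0) = f i - X * divX (f i)
        have := divX_mul_X_add (f i)
        linear_combination this
      rw [h5]
      exact M.sub_mem hf (M.smul_mem _ h4)
    · exact h1 m

theorem cv_mem_of_deriv' {ι : Type*} [Fintype ι] (M : Submodule k[X] (ι → k[X]))
    (hd : ∀ f ∈ M, (fun i => derivative (f i)) ∈ M) :
    ∀ f ∈ M, ∀ m, cv f m ∈ M := by
  intro f hf
  exact cv_mem_of_deriv M hd (Finset.univ.sup (fun i => (f i).natDegree)) f hf
    (fun i => Finset.le_sup (f := fun i => (f i).natDegree) (Finset.mem_univ i))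

/-! ### the connection -/

/-- `NT P j = th (P j) + sum_i P i * A i j` in the order
`0:1, 1:l, 2:L, 3:Li2, 4:f6, 5:f7, 6:F, 7:T^`. -/
def NT (P : Fin 8 → k[X]) : Fin 8 → k[X] :=
  ![th (P 0) - X * (X + 1) * P 2 + C (1 / 4) * X * P 7,
    th (P 1) - C (1 / 2) * X * (X + 1) * P 5
      + (X * (X - 1) - C (1 / 2) * X * (X + 1)) * P 4,
    th (P 2) + (X ^ 2 - 1) * P 3 - X * (X + 1) * P 5 + X * (X - 1) * P 4,
    th (P 3), th (P 4), th (P 5),
    nF (P 6) (P 7), nT (P 6) (P 7)]

theorem NT_0 (P : Fin 8 → k[X]) : NT P 0 = th (P 0) - X * (X + 1) * P 2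
    + C (1 / 4) * X * P 7 := rfl
theorem NT_1 (P : Fin 8 → k[X]) : NT P 1 = th (P 1) - C (1 / 2) * X * (X + 1) * P 5
      + (X * (X - 1) - C (1 / 2) * X * (X + 1)) * P 4 := rfl
theorem NT_2 (P : Fin 8 → k[X]) : NT P 2 = th (P 2) + (X ^ 2 - 1) * P 3
      - X * (X + 1) * P 5 + X * (X - 1) * P 4 := rfl
theorem NT_3 (P : Fin 8 → k[X]) : NT P 3 = th (P 3) := rfl
theorem NT_4 (P : Fin 8 → k[X]) : NT P 4 = th (P 4) := rfl
theorem NT_5 (P : Fin 8 → k[X]) : NT P 5 = th (P 5) := rfl
theorem NT_6 (P : Fin 8 → k[X]) : NT P 6 = nF (P 6) (P 7) := rfl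
theorem NT_7 (P : Fin 8 → k[X]) : NT P 7 = nT (P 6) (P 7) := rfl

/-- `h^2 * NT (w / h)`. -/
def sh (h : k[X]) (w : Fin 8 → k[X]) : Fin 8 → k[X] := h • NT w - th h • w

theorem sh_apply (h : k[X]) (w : Fin 8 → k[X]) (i : Fin 8) :
    sh h w i = h * NT w i - th h * w i := rfl

/-- the map of a submodule under a projection, saturated. -/
def satMap {ι : Type*} (Z : Submodule k[X] (Fin 8 → k[X]))
    (φ : (Fin 8 → k[X]) →ₗ[k[X]] (ι → k[X])) : Submodule k[X] (ι → k[X]) where
  carrier := {f | ∃ h : k[X], h ≠ 0 ∧ ∃ w ∈ Z, φ w = h • f}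
  add_mem' := by
    rintro f g ⟨h1, h10, w1, hw1, e1⟩ ⟨h2, h20, w2, hw2, e2⟩
    refine ⟨h1 * h2, mul_ne_zero h10 h20, h2 • w1 + h1 • w2,
      Z.add_mem (Z.smul_mem _ hw1) (Z.smul_mem _ hw2), ?_⟩
    rw [map_add, map_smul, map_smul, e1, e2, smul_add, smul_smul, smul_smul, mul_comm h2 h1]
  zero_mem' := ⟨1, one_ne_zero, 0, Z.zero_mem, by rw [map_zero, smul_zero]⟩
  smul_mem' := by
    rintro r f ⟨h1, h10, w1, hw1, e1⟩
    refine ⟨h1, h10, r • w1, Z.smul_mem _ hw1, ?_⟩
    rw [map_smul, e1, smul_comm]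

/-- Trivial quotients: all coefficient vectors of `φ w` lie in `T` as soon as the constant vectors
in the saturation of the image do. -/
theorem tq {ι : Type*} [Fintype ι] (W₀ : Submodule k[X] (Fin 8 → k[X]))
    (hst : ∀ w ∈ W₀, NT w ∈ W₀)
    (φ : (Fin 8 → k[X]) →ₗ[k[X]] (ι → k[X]))
    (hφ : ∀ w ∈ W₀, ∀ i, φ (NT w) i = th (φ w i))
    (T : Submodule k[X] (ι → k[X]))
    (hT : ∀ w ∈ W₀, ∀ h : k[X], h ≠ 0 → ∀ c : ι → k, φ w = h • (fun i => C (c i)) →
      (fun i => C (c i)) ∈ T) :
    ∀ w ∈ W₀, ∀ m, cv (φ w) m ∈ T := by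
  intro w hw m
  have hmem : φ w ∈ satMap W₀ φ := ⟨1, one_ne_zero, w, hw, by rw [one_smul]⟩
  have hder : ∀ f ∈ satMap W₀ φ, (fun i => derivative (f i)) ∈ satMap W₀ φ := by
    rintro f ⟨h, h0, w, hw, e⟩
    have hq : (X * (X + 1) * (X - 1) : k[X]) ≠ 0 := by
      intro h0
      have := congrArg (eval (2 : k)) h0
      simp only [eval_mul, eval_X, eval_add, eval_sub, eval_one, eval_zero] at this
      norm_num at this
    refine ⟨h ^ 2 * (X * (X + 1) * (X - 1)), mul_ne_zero (pow_ne_zero 2 h0) hq,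
      sh h w, W₀.sub_mem (W₀.smul_mem _ (hst w hw)) (W₀.smul_mem _ hw), ?_⟩
    funext i
    have e1 : φ (sh h w) i = h * φ (NT w) i - th h * φ w i := by
      unfold sh
      rw [map_sub, map_smul, map_smul]; rfl
    rw [e1, hφ w hw, e]
    show h * th (h * f i) - th h * (h * f i) =
      h ^ 2 * (X * (X + 1) * (X - 1)) * derivative (f i)
    rw [th_mul]
    unfold th
    ring
  obtain ⟨h, h0, w', hw', e'⟩ := cv_mem_of_deriv' _ hder _ hmem m
  exact hT w' hw' h h0 _ e'

/-- saturated submodules -/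
def Sat (W : Submodule k[X] (Fin 8 → k[X])) : Prop :=
  ∀ (h : k[X]) (w : Fin 8 → k[X]), h ≠ 0 → h • w ∈ W → w ∈ W

/-- stable submodules -/
def Stab (W : Submodule k[X] (Fin 8 → k[X])) : Prop := ∀ w ∈ W, NT w ∈ W

/-- the vectors without `F,T` part -/
def ftZero (k : Type*) [Field k] : Submodule k[X] (Fin 8 → k[X]) where
  carrier := {w | w 6 = 0 ∧ w 7 = 0}
  add_mem' := by
    rintro f g ⟨h1, h2⟩ ⟨h3, h4⟩
    exact ⟨by rw [Pi.add_apply, h1, h3, add_zero], by rw [Pi.add_apply, h2, h4, add_zero]⟩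
  zero_mem' := ⟨rfl, rfl⟩
  smul_mem' := by
    rintro r f ⟨h1, h2⟩
    exact ⟨by rw [Pi.smul_apply, h1, smul_zero], by rw [Pi.smul_apply, h2, smul_zero]⟩

theorem mem_ftZero {w : Fin 8 → k[X]} : w ∈ ftZero k ↔ w 6 = 0 ∧ w 7 = 0 := Iff.rfl

/-- projection to `Li2, f6, f7`. -/
def φ3 (k : Type*) [Field k] : (Fin 8 → k[X]) →ₗ[k[X]] (Fin 3 → k[X]) :=
  LinearMap.funLeft k[X] k[X] (![3, 4, 5] : Fin 3 → Fin 8)

/-- projection to `l, L`. -/
def φ2 (k : Type*) [Field k] : (Fin 8 → k[X]) →ₗ[k[X]] (Fin 2 → k[X]) :=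
  LinearMap.funLeft k[X] k[X] (![1, 2] : Fin 2 → Fin 8)

theorem φ3_zero {w : Fin 8 → k[X]} : φ3 k w = 0 ↔ w 3 = 0 ∧ w 4 = 0 ∧ w 5 = 0 := by
  constructor
  · intro h
    exact ⟨congrFun h 0, congrFun h 1, congrFun h 2⟩
  · rintro ⟨h1, h2, h3⟩
    funext i
    fin_cases i
    · exact h1
    · exact h2
    · exact h3

theorem φ2_zero {w : Fin 8 → k[X]} : φ2 k w = 0 ↔ w 1 = 0 ∧ w 2 = 0 := by
  constructor
  · intro h
    exact ⟨congrFun h 0, congrFun h 1⟩
  · rintro ⟨h1, h2⟩
    funext i
    fin_cases i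
    · exact h1
    · exact h2

theorem vec_ext {v w : Fin 8 → k[X]} (h0 : v 0 = w 0) (h1 : v 1 = w 1) (h2 : v 2 = w 2)
    (h3 : v 3 = w 3) (h4 : v 4 = w 4) (h5 : v 5 = w 5) (h6 : v 6 = w 6) (h7 : v 7 = w 7) :
    v = w := by
  funext i
  fin_cases i
  · exact h0
  · exact h1
  · exact h2
  · exact h3
  · exact h4
  · exact h5
  · exact h6
  · exact h7

theorem hφ3 (w : Fin 8 → k[X]) (i : Fin 3) : φ3 k (NT w) i = th (φ3 k w i) := by
  fin_cases i <;> rfl

theorem hφ2 (w : Fin 8 → k[X]) (h : φ3 k w = 0) (i : Fin 2) :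
    φ2 k (NT w) i = th (φ2 k w i) := by
  obtain ⟨h3, h4, h5⟩ := φ3_zero.mp h
  fin_cases i
  · show NT w 1 = th (w 1)
    rw [NT_1, h4, h5]; ring
  · show NT w 2 = th (w 2)
    rw [NT_2, h3, h4, h5]; ring

/-- the part of `W` with `Li2, f6, f7` components zero -/
def W0 (W : Submodule k[X] (Fin 8 → k[X])) : Submodule k[X] (Fin 8 → k[X]) :=
  W ⊓ LinearMap.ker (φ3 k)

theorem mem_W0 {W : Submodule k[X] (Fin 8 → k[X])} {w : Fin 8 → k[X]} :
    w ∈ W0 W ↔ w ∈ W ∧ φ3 k w = 0 := by
  unfold W0
  rw [Submodule.mem_inf, LinearMap.mem_ker]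

theorem φ3_NT_zero {w : Fin 8 → k[X]} (h : φ3 k w = 0) : φ3 k (NT w) = 0 := by
  funext i
  rw [hφ3, h]
  simp

theorem stab_W0 {W : Submodule k[X] (Fin 8 → k[X])} (hW : Stab W) : Stab (W0 W) := by
  intro w hw
  obtain ⟨h1, h2⟩ := mem_W0.mp hw
  exact mem_W0.mpr ⟨hW w h1, φ3_NT_zero h2⟩

theorem sh_mem {W : Submodule k[X] (Fin 8 → k[X])} (hW : Stab W) {w : Fin 8 → k[X]} (hw : w ∈ W)
    (h : k[X]) : sh h w ∈ W :=
  W.sub_mem (W.smul_mem _ (hW w hw)) (W.smul_mem _ hw)

theorem sh_ker {ι : Type*} {W₀ : Submodule k[X] (Fin 8 → k[X])}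
    (φ : (Fin 8 → k[X]) →ₗ[k[X]] (ι → k[X]))
    (hφ : ∀ w ∈ W₀, ∀ i, φ (NT w) i = th (φ w i)) {w : Fin 8 → k[X]} (hw : w ∈ W₀)
    {h : k[X]} {c : ι → k} (hc : φ w = h • (fun i => C (c i))) : φ (sh h w) = 0 := by
  funext i
  have e1 : φ (sh h w) i = h * φ (NT w) i - th h * φ w i := by
    unfold sh
    rw [map_sub, map_smul, map_smul]; rfl
  rw [e1, hφ w hw, hc]
  show h * th (h * C (c i)) - th h * (h * C (c i)) = 0
  rw [th_mul, th_C]; ring

/-- no `F,T` part on the kernel of a trivial quotient implies no `F,T` part at all. -/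
theorem k1 {ι : Type*} [Fintype ι] (W₀ : Submodule k[X] (Fin 8 → k[X])) (hst : Stab W₀)
    (φ : (Fin 8 → k[X]) →ₗ[k[X]] (ι → k[X]))
    (hφ : ∀ w ∈ W₀, ∀ i, φ (NT w) i = th (φ w i))
    (h0 : ∀ w ∈ W₀, φ w = 0 → w ∈ ftZero k) : ∀ w ∈ W₀, w ∈ ftZero k := by
  have key := tq W₀ hst φ hφ (satMap (W₀ ⊓ ftZero k) φ) (by
    intro w hw h hh c hc
    have h1 : sh h w ∈ ftZero k := h0 _ (sh_mem hst hw h) (sh_ker φ hφ hw hc)
    obtain ⟨h6, h7⟩ := h1
    rw [sh_apply, NT_6] at h6
    rw [sh_apply, NT_7] at h7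
    have h2 : w 6 * nT (w 6) (w 7) = w 7 * nF (w 6) (w 7) := by
      have : h * (w 6 * nT (w 6) (w 7)) = h * (w 7 * nF (w 6) (w 7)) := by
        linear_combination (w 6) * h7 - (w 7) * h6
      exact mul_left_cancel₀ hh this
    exact ⟨h, hh, w, ⟨hw, ft_irred h2⟩, hc⟩)
  intro w hw
  have h1 : φ w ∈ satMap (W₀ ⊓ ftZero k) φ := mem_of_cv _ _ (key w hw)
  obtain ⟨h, hh, w', hw', e⟩ := h1
  have h2 : h • w - w' ∈ ftZero k := by
    apply h0
    · exact W₀.sub_mem (W₀.smul_mem _ hw) hw'.1
    · rw [map_sub, map_smul, e, sub_self]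
  have h3 : h • w ∈ ftZero k := by
    have := (ftZero k).add_mem h2 hw'.2
    rwa [sub_add_cancel] at this
  obtain ⟨h6, h7⟩ := h3
  exact ⟨(mul_eq_zero.mp h6).resolve_left hh, (mul_eq_zero.mp h7).resolve_left hh⟩

/-- unit vectors -/
def ev (k : Type*) [Field k] (i : Fin 8) : Fin 8 → k[X] := Pi.single i 1

theorem ev_same (i : Fin 8) : ev k i i = 1 := by
  unfold ev; rw [Pi.single_eq_same]

theorem ev_ne {i j : Fin 8} (h : j ≠ i) : ev k i j = 0 := by
  unfold ev; rw [Pi.single_eq_of_ne h]

/-- If `W` has an `F,T` part, then `e_F, e_T, e_1 ∈ W`. -/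
theorem ft_mem {W : Submodule k[X] (Fin 8 → k[X])} (hsat : Sat W) (hst : Stab W)
    (hft : ¬ ∀ w ∈ W, w ∈ ftZero k) : ev k 6 ∈ W ∧ ev k 7 ∈ W ∧ ev k 0 ∈ W := by
  -- find `w` with only coordinates 0, 6, 7
  have h1 : ¬ ∀ w ∈ W0 W, w ∈ ftZero k := by
    intro h
    exact hft (k1 W hst (φ3 k) (fun w _ i => hφ3 w i) (fun w hw h0 => h w (mem_W0.mpr ⟨hw, h0⟩)))
  have h2 : ¬ ∀ w ∈ W0 W, φ2 k w = 0 → w ∈ ftZero k := by
    intro h
    exact h1 (k1 (W0 W) (stab_W0 hst) (φ2 k) (fun w hw i => hφ2 w (mem_W0.mp hw).2 i) h)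
  push Not at h2
  obtain ⟨w, hw, hw2, hwft⟩ := h2
  obtain ⟨hwW, hw3⟩ := mem_W0.mp hw
  obtain ⟨w3, w4, w5⟩ := φ3_zero.mp hw3
  obtain ⟨w1, w2⟩ := φ2_zero.mp hw2
  set D := w 6 * nT (w 6) (w 7) - w 7 * nF (w 6) (w 7) with hD
  have hD0 : D ≠ 0 := by
    intro h0
    exact hwft (ft_irred (sub_eq_zero.mp h0))
  have hNT := hst w hwW
  set u1 := nT (w 6) (w 7) • w - w 7 • NT w with hu1
  set u2 := w 6 • NT w - nF (w 6) (w 7) • w with hu2
  have hu1W : u1 ∈ W := W.sub_mem (W.smul_mem _ hwW) (W.smul_mem _ hNT)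
  have hu2W : u2 ∈ W := W.sub_mem (W.smul_mem _ hNT) (W.smul_mem _ hwW)
  have N1 : NT w 1 = 0 := by rw [NT_1, w1, w5, w4]; simp
  have N2 : NT w 2 = 0 := by rw [NT_2, w2, w3, w5, w4]; simp
  have N3 : NT w 3 = 0 := by rw [NT_3, w3]; simp
  have N4 : NT w 4 = 0 := by rw [NT_4, w4]; simp
  have N5 : NT w 5 = 0 := by rw [NT_5, w5]; simp
  have a1 : u1 1 = 0 := by rw [hu1]; show _ * w 1 - _ * NT w 1 = 0; rw [w1, N1]; ring
  have a2 : u1 2 = 0 := by rw [hu1]; show _ * w 2 - _ * NT w 2 = 0; rw [w2, N2]; ring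
  have a3 : u1 3 = 0 := by rw [hu1]; show _ * w 3 - _ * NT w 3 = 0; rw [w3, N3]; ring
  have a4 : u1 4 = 0 := by rw [hu1]; show _ * w 4 - _ * NT w 4 = 0; rw [w4, N4]; ring
  have a5 : u1 5 = 0 := by rw [hu1]; show _ * w 5 - _ * NT w 5 = 0; rw [w5, N5]; ring
  have a6 : u1 6 = D := by
    rw [hu1]; show _ * w 6 - _ * NT w 6 = D; rw [NT_6, hD]; ring
  have a7 : u1 7 = 0 := by
    rw [hu1]; show _ * w 7 - _ * NT w 7 = 0; rw [NT_7]; ring
  have b1 : u2 1 = 0 := by rw [hu2]; show _ * NT w 1 - _ * w 1 = 0; rw [w1, N1]; ring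
  have b2 : u2 2 = 0 := by rw [hu2]; show _ * NT w 2 - _ * w 2 = 0; rw [w2, N2]; ring
  have b3 : u2 3 = 0 := by rw [hu2]; show _ * NT w 3 - _ * w 3 = 0; rw [w3, N3]; ring
  have b4 : u2 4 = 0 := by rw [hu2]; show _ * NT w 4 - _ * w 4 = 0; rw [w4, N4]; ring
  have b5 : u2 5 = 0 := by rw [hu2]; show _ * NT w 5 - _ * w 5 = 0; rw [w5, N5]; ring
  have b6 : u2 6 = 0 := by
    rw [hu2]; show _ * NT w 6 - _ * w 6 = 0; rw [NT_6]; ring
  have b7 : u2 7 = D := by
    rw [hu2]; show _ * NT w 7 - _ * w 7 = D; rw [NT_7, hD]; ring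
  have he0 : ev k 0 ∈ W := by
    by_contra hne
    -- elements with only a 0-coordinate vanish
    have only0 : ∀ z ∈ W, z 1 = 0 → z 2 = 0 → z 3 = 0 → z 4 = 0 → z 5 = 0 → z 6 = 0 → z 7 = 0 →
        z 0 = 0 := by
      intro z hz z1 z2 z3 z4 z5 z6 z7
      by_contra hz0
      apply hne
      apply hsat (z 0) _ hz0
      have : z 0 • ev k 0 = z := by
        apply vec_ext
        · show z 0 * ev k 0 0 = z 0
          rw [ev_same, mul_one]
        · show z 0 * ev k 0 1 = z 1
          rw [ev_ne (by decide), z1, mul_zero]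
        · show z 0 * ev k 0 2 = z 2
          rw [ev_ne (by decide), z2, mul_zero]
        · show z 0 * ev k 0 3 = z 3
          rw [ev_ne (by decide), z3, mul_zero]
        · show z 0 * ev k 0 4 = z 4
          rw [ev_ne (by decide), z4, mul_zero]
        · show z 0 * ev k 0 5 = z 5
          rw [ev_ne (by decide), z5, mul_zero]
        · show z 0 * ev k 0 6 = z 6
          rw [ev_ne (by decide), z6, mul_zero]
        · show z 0 * ev k 0 7 = z 7
          rw [ev_ne (by decide), z7, mul_zero]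
      rw [this]; exact hz
    have hN1 := hst u1 hu1W
    have hN2 := hst u2 hu2W
    -- first relation
    have r1 : (D • NT u1 - th D • u1 + ((X + 1) * D) • u2) 0 = 0 := by
      apply only0
      · exact W.add_mem (W.sub_mem (W.smul_mem _ hN1) (W.smul_mem _ hu1W)) (W.smul_mem _ hu2W)
      · show D * NT u1 1 - th D * u1 1 + (X + 1) * D * u2 1 = 0
        rw [NT_1, a1, a5, a4, b1]; simp
      · show D * NT u1 2 - th D * u1 2 + (X + 1) * D * u2 2 = 0
        rw [NT_2, a2, a3, a5, a4, b2]; simp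
      · show D * NT u1 3 - th D * u1 3 + (X + 1) * D * u2 3 = 0
        rw [NT_3, a3, b3]; simp
      · show D * NT u1 4 - th D * u1 4 + (X + 1) * D * u2 4 = 0
        rw [NT_4, a4, b4]; simp
      · show D * NT u1 5 - th D * u1 5 + (X + 1) * D * u2 5 = 0
        rw [NT_5, a5, b5]; simp
      · show D * NT u1 6 - th D * u1 6 + (X + 1) * D * u2 6 = 0
        rw [NT_6, a6, a7, b6]; unfold nF; ring
      · show D * NT u1 7 - th D * u1 7 + (X + 1) * D * u2 7 = 0
        rw [NT_7, a6, a7, b7]; unfold nT; rw [th_zero]; ring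
    have r2 : (D • NT u2 - (th D + (X - X ^ 2) * D) • u2 + (X ^ 2 * (1 - X) * D) • u1) 0 = 0 := by
      apply only0
      · exact W.add_mem (W.sub_mem (W.smul_mem _ hN2) (W.smul_mem _ hu2W)) (W.smul_mem _ hu1W)
      · show D * NT u2 1 - (th D + (X - X ^ 2) * D) * u2 1 + X ^ 2 * (1 - X) * D * u1 1 = 0
        rw [NT_1, a1, b5, b4, b1]; simp
      · show D * NT u2 2 - (th D + (X - X ^ 2) * D) * u2 2 + X ^ 2 * (1 - X) * D * u1 2 = 0
        rw [NT_2, a2, b3, b5, b4, b2]; simp
      · show D * NT u2 3 - (th D + (X - X ^ 2) * D) * u2 3 + X ^ 2 * (1 - X) * D * u1 3 = 0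
        rw [NT_3, a3, b3]; simp
      · show D * NT u2 4 - (th D + (X - X ^ 2) * D) * u2 4 + X ^ 2 * (1 - X) * D * u1 4 = 0
        rw [NT_4, a4, b4]; simp
      · show D * NT u2 5 - (th D + (X - X ^ 2) * D) * u2 5 + X ^ 2 * (1 - X) * D * u1 5 = 0
        rw [NT_5, a5, b5]; simp
      · show D * NT u2 6 - (th D + (X - X ^ 2) * D) * u2 6 + X ^ 2 * (1 - X) * D * u1 6 = 0
        rw [NT_6, a6, b7, b6]; unfold nF; rw [th_zero]; ring
      · show D * NT u2 7 - (th D + (X - X ^ 2) * D) * u2 7 + X ^ 2 * (1 - X) * D * u1 7 = 0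
        rw [NT_7, b6, a7, b7]; unfold nT; ring
    have r1' : D * (th (u1 0)) - th D * u1 0 + (X + 1) * D * u2 0 = 0 := by
      have : D * NT u1 0 - th D * u1 0 + (X + 1) * D * u2 0 = 0 := r1
      rw [NT_0, a2, a7] at this
      linear_combination this
    have r2' : D * (th (u2 0) + C (1 / 4) * X * D) - (th D + (X - X ^ 2) * D) * u2 0
        + X ^ 2 * (1 - X) * D * u1 0 = 0 := by
      have : D * NT u2 0 - (th D + (X - X ^ 2) * D) * u2 0
        + X ^ 2 * (1 - X) * D * u1 0 = 0 := r2
      rw [NT_0, b2, b7] at this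
      linear_combination this
    refine nonsplit (h := D) (a := - u1 0) (b := - u2 0) hD0 ?_ ?_
    · rw [th_neg]; linear_combination -r1'
    · rw [th_neg]; linear_combination -r2'
  refine ⟨?_, ?_, he0⟩
  · apply hsat D _ hD0
    have : D • ev k 6 = u1 - u1 0 • ev k 0 := by
      apply vec_ext
      · show D * ev k 6 0 = u1 0 - u1 0 * ev k 0 0
        rw [ev_ne (by decide), ev_same]; ring
      · show D * ev k 6 1 = u1 1 - u1 0 * ev k 0 1
        rw [ev_ne (by decide), ev_ne (by decide), a1]; ring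
      · show D * ev k 6 2 = u1 2 - u1 0 * ev k 0 2
        rw [ev_ne (by decide), ev_ne (by decide), a2]; ring
      · show D * ev k 6 3 = u1 3 - u1 0 * ev k 0 3
        rw [ev_ne (by decide), ev_ne (by decide), a3]; ring
      · show D * ev k 6 4 = u1 4 - u1 0 * ev k 0 4
        rw [ev_ne (by decide), ev_ne (by decide), a4]; ring
      · show D * ev k 6 5 = u1 5 - u1 0 * ev k 0 5
        rw [ev_ne (by decide), ev_ne (by decide), a5]; ring
      · show D * ev k 6 6 = u1 6 - u1 0 * ev k 0 6
        rw [ev_same, ev_ne (by decide), a6]; ring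
      · show D * ev k 6 7 = u1 7 - u1 0 * ev k 0 7
        rw [ev_ne (by decide), ev_ne (by decide), a7]; ring
    rw [this]
    exact W.sub_mem hu1W (W.smul_mem _ he0)
  · apply hsat D _ hD0
    have : D • ev k 7 = u2 - u2 0 • ev k 0 := by
      apply vec_ext
      · show D * ev k 7 0 = u2 0 - u2 0 * ev k 0 0
        rw [ev_ne (by decide), ev_same]; ring
      · show D * ev k 7 1 = u2 1 - u2 0 * ev k 0 1
        rw [ev_ne (by decide), ev_ne (by decide), b1]; ring
      · show D * ev k 7 2 = u2 2 - u2 0 * ev k 0 2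
        rw [ev_ne (by decide), ev_ne (by decide), b2]; ring
      · show D * ev k 7 3 = u2 3 - u2 0 * ev k 0 3
        rw [ev_ne (by decide), ev_ne (by decide), b3]; ring
      · show D * ev k 7 4 = u2 4 - u2 0 * ev k 0 4
        rw [ev_ne (by decide), ev_ne (by decide), b4]; ring
      · show D * ev k 7 5 = u2 5 - u2 0 * ev k 0 5
        rw [ev_ne (by decide), ev_ne (by decide), b5]; ring
      · show D * ev k 7 6 = u2 6 - u2 0 * ev k 0 6
        rw [ev_ne (by decide), ev_ne (by decide), b6]; ring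
      · show D * ev k 7 7 = u2 7 - u2 0 * ev k 0 7
        rw [ev_same, ev_ne (by decide), b7]; ring
    rw [this]
    exact W.sub_mem hu2W (W.smul_mem _ he0)

end

end Vale.Agent.P030.H200
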