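import Vale.Agent.P030.H200.Stable

/-!
# P030, non-vanishing, part Z2 (continued): the classification
-/

set_option autoImplicit false
set_option linter.unusedSectionVars false

open Polynomial

namespace Vale.Agent.P030.H200

variable {k : Type*} [Field k] [CharZero k]

noncomputable section

/-- the elements of `W` all of whose coefficient vectors lie in `W`. -/
def cgSub (W : Submodule k[X] (Fin 8 → k[X])) : Submodule k[X] (Fin 8 → k[X]) where
  carrier := {w | w ∈ W ∧ ∀ m, cv w m ∈ W}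
  add_mem' := by
    rintro f g ⟨h1, h2⟩ ⟨h3, h4⟩
    refine ⟨W.add_mem h1 h3, fun m => ?_⟩
    have : cv (f + g) m = cv f m + cv g m := by
      funext i
      show C ((f i + g i).coeff m) = C ((f i).coeff m) + C ((g i).coeff m)
      rw [coeff_add, C_add]
    rw [this]; exact W.add_mem (h2 m) (h4 m)
  zero_mem' := by
    refine ⟨W.zero_mem, fun m => ?_⟩
    have : cv (0 : Fin 8 → k[X]) m = 0 := by
      funext i
      show C ((0 : k[X]).coeff m) = 0
      rw [coeff_zero, C_0]
    rw [this]; exact W.zero_mem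
  smul_mem' := by
    rintro r f ⟨h1, h2⟩
    refine ⟨W.smul_mem _ h1, fun m => ?_⟩
    have : cv (r • f) m =
        ∑ x ∈ Finset.HasAntidiagonal.antidiagonal m, C (r.coeff x.1) • cv f x.2 := by
      funext i
      rw [Finset.sum_apply]
      show C ((r * f i).coeff m) = _
      rw [coeff_mul, map_sum]
      apply Finset.sum_congr rfl
      intro x _
      show C (r.coeff x.1 * (f i).coeff x.2) = C (r.coeff x.1) * C ((f i).coeff x.2)
      rw [C_mul]
    rw [this]
    exact W.sum_mem fun x _ => W.smul_mem _ (h2 _)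

/-- constant vectors -/
theorem cv_const {ι : Type*} (c : ι → k) (m : ℕ) :
    cv (fun i => C (c i)) m = if m = 0 then (fun i => C (c i)) else 0 := by
  rcases m with _ | m
  · rw [if_pos rfl]
    funext i
    show C ((C (c i)).coeff 0) = C (c i)
    rw [coeff_C_zero]
  · rw [if_neg (Nat.succ_ne_zero m)]
    funext i
    show C ((C (c i)).coeff (m + 1)) = 0
    rw [coeff_C_succ, C_0]

theorem const_mem_cgSub {W : Submodule k[X] (Fin 8 → k[X])} {c : Fin 8 → k}
    (h : (fun i => C (c i)) ∈ W) : (fun i => C (c i)) ∈ cgSub W := by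
  refine ⟨h, fun m => ?_⟩
  rw [cv_const]
  split_ifs
  · exact h
  · exact W.zero_mem

theorem smul_ev_zero {z : Fin 8 → k[X]} (z1 : z 1 = 0) (z2 : z 2 = 0) (z3 : z 3 = 0)
    (z4 : z 4 = 0) (z5 : z 5 = 0) (z6 : z 6 = 0) (z7 : z 7 = 0) : z 0 • ev k 0 = z := by
  apply vec_ext
  · show z 0 * ev k 0 0 = z 0
    rw [ev_same, mul_one]
  · show z 0 * ev k 0 1 = z 1
    rw [ev_ne (by decide), z1, mul_zero]
  · show z 0 * ev k 0 2 = z 2
    rw [ev_ne (by decide), z2, mul_zero]
  · show z 0 * ev k 0 3 = z 3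
    rw [ev_ne (by decide), z3, mul_zero]
  · show z 0 * ev k 0 4 = z 4
    rw [ev_ne (by decide), z4, mul_zero]
  · show z 0 * ev k 0 5 = z 5
    rw [ev_ne (by decide), z5, mul_zero]
  · show z 0 * ev k 0 6 = z 6
    rw [ev_ne (by decide), z6, mul_zero]
  · show z 0 * ev k 0 7 = z 7
    rw [ev_ne (by decide), z7, mul_zero]

theorem only0 {W : Submodule k[X] (Fin 8 → k[X])} (hsat : Sat W) (hne : ev k 0 ∉ W)
    {z : Fin 8 → k[X]} (hz : z ∈ W) (z1 : z 1 = 0) (z2 : z 2 = 0) (z3 : z 3 = 0)
    (z4 : z 4 = 0) (z5 : z 5 = 0) (z6 : z 6 = 0) (z7 : z 7 = 0) : z 0 = 0 := by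
  by_contra hz0
  apply hne
  apply hsat (z 0) _ hz0
  rw [smul_ev_zero z1 z2 z3 z4 z5 z6 z7]; exact hz

/-- The rank-one case: if `e_1 ∉ W` then all elements of `W` are supported on `1, l`,
and `W` is generated by constants. -/
theorem caseN {W : Submodule k[X] (Fin 8 → k[X])} (hsat : Sat W) (hst : Stab W)
    (hne : ev k 0 ∉ W) :
    ∀ w ∈ W, (w 2 = 0 ∧ w 3 = 0 ∧ w 4 = 0 ∧ w 5 = 0 ∧ w 6 = 0 ∧ w 7 = 0) ∧
      ∀ m, cv w m ∈ W := by
  have hft : ∀ w ∈ W, w ∈ ftZero k := by
    by_contra h
    exact hne (ft_mem hsat hst h).2.2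
  -- L-coordinate on W0
  have B1 : ∀ w ∈ W0 W, w 2 = 0 := by
    intro w hw
    have key := tq (W0 W) (stab_W0 hst) (φ2 k) (fun w hw i => hφ2 w (mem_W0.mp hw).2 i)
      (LinearMap.ker (LinearMap.proj (R := k[X]) (φ := fun _ : Fin 2 => k[X]) 1)) (by
        intro w hw h hh c hc
        rw [LinearMap.mem_ker]
        show C (c 1) = 0
        obtain ⟨hwW, hw3⟩ := mem_W0.mp hw
        obtain ⟨w3, w4, w5⟩ := φ3_zero.mp hw3
        obtain ⟨w6, w7⟩ := hft w hwW
        have hs : sh h w ∈ W0 W := sh_mem (stab_W0 hst) hw h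
        have hs2 : φ2 k (sh h w) = 0 :=
          sh_ker (W₀ := W0 W) (φ2 k) (fun w hw i => hφ2 w (mem_W0.mp hw).2 i) hw hc
        obtain ⟨s1, s2⟩ := φ2_zero.mp hs2
        obtain ⟨hsW, hs3⟩ := mem_W0.mp hs
        obtain ⟨s3, s4, s5⟩ := φ3_zero.mp hs3
        obtain ⟨s6, s7⟩ := hft _ hsW
        have s0 := only0 hsat hne hsW s1 s2 s3 s4 s5 s6 s7
        rw [sh_apply, NT_0, w7] at s0
        have hw2 : w 2 = h * C (c 1) := congrFun hc 1
        rw [hw2] at s0
        have e : h * th (w 0) - th h * w 0 = h ^ 2 * (X * (X + 1) * C (c 1)) := by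
          linear_combination s0
        have := (residue_zero hh e).2.1
        simp only [eval_mul, eval_X, eval_add, eval_one, eval_C] at this
        have hc1 : c 1 = 0 := by linear_combination this / 2
        rw [hc1, C_0])
      w hw
    ext m
    have h1 := key m
    rw [LinearMap.mem_ker] at h1
    have h2 : C ((w 2).coeff m) = 0 := h1
    rw [coeff_zero]
    exact C_eq_zero.mp h2
  -- depth-two coordinates vanish
  have B2 : ∀ w ∈ W, φ3 k w = 0 := by
    intro w hw
    have key := tq W hst (φ3 k) (fun w _ i => hφ3 w i) ⊥ (by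
        intro w hw h hh c hc
        rw [Submodule.mem_bot]
        have hs : sh h w ∈ W := sh_mem hst hw h
        have hs3 : φ3 k (sh h w) = 0 :=
          sh_ker (W₀ := W) (φ3 k) (fun w _ i => hφ3 w i) hw hc
        have s2 := B1 _ (mem_W0.mpr ⟨hs, hs3⟩)
        have w3 : w 3 = h * C (c 0) := congrFun hc 0
        have w4 : w 4 = h * C (c 1) := congrFun hc 1
        have w5 : w 5 = h * C (c 2) := congrFun hc 2
        rw [sh_apply, NT_2, w3, w4, w5] at s2
        have e : h * th (w 2) - th h * w 2 =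
            h ^ 2 * (X * (X + 1) * C (c 2) - (X ^ 2 - 1) * C (c 0) - X * (X - 1) * C (c 1)) := by
          linear_combination s2
        obtain ⟨e0, e1, e2⟩ := residue_zero hh e
        simp only [eval_mul, eval_X, eval_add, eval_one, eval_C, eval_sub, eval_pow] at e0 e1 e2
        have c0 : c 0 = 0 := by linear_combination e0
        have c2 : c 2 = 0 := by linear_combination e1 / 2
        have c1 : c 1 = 0 := by linear_combination -e2 / 2
        funext i
        fin_cases i
        · show C (c 0) = 0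
          rw [c0, C_0]
        · show C (c 1) = 0
          rw [c1, C_0]
        · show C (c 2) = 0
          rw [c2, C_0])
      w hw
    have h1 : φ3 k w ∈ (⊥ : Submodule k[X] (Fin 3 → k[X])) := mem_of_cv _ _ key
    exact (Submodule.mem_bot _).mp h1
  have hall : ∀ w ∈ W, w 2 = 0 ∧ w 3 = 0 ∧ w 4 = 0 ∧ w 5 = 0 ∧ w 6 = 0 ∧ w 7 = 0 := by
    intro w hw
    have h3 := B2 w hw
    obtain ⟨w3, w4, w5⟩ := φ3_zero.mp h3
    obtain ⟨w6, w7⟩ := hft w hw
    exact ⟨B1 w (mem_W0.mpr ⟨hw, h3⟩), w3, w4, w5, w6, w7⟩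
  -- constants
  let G := cgSub W
  have key := tq W hst (φ2 k) (fun w hw i => hφ2 w (B2 w hw) i) (G.map (φ2 k)) (by
    intro w hw h hh c hc
    obtain ⟨w2, w3, w4, w5, w6, w7⟩ := hall w hw
    have hs : sh h w ∈ W := sh_mem hst hw h
    have hs2 : φ2 k (sh h w) = 0 :=
      sh_ker (W₀ := W) (φ2 k) (fun w hw i => hφ2 w (B2 w hw) i) hw hc
    obtain ⟨s1, s2⟩ := φ2_zero.mp hs2
    obtain ⟨-, s3, s4, s5, s6, s7⟩ := hall _ hs
    have s0 := only0 hsat hne hs s1 s2 s3 s4 s5 s6 s7
    rw [sh_apply, NT_0, w2, w7] at s0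
    obtain ⟨b, hb⟩ := residue_const hh (G := w 0) (by linear_combination s0)
    have w1 : w 1 = h * C (c 0) := congrFun hc 0
    have hw2 : w 2 = h * C (c 1) := congrFun hc 1
    have hc1 : (C (c 1) : k[X]) = 0 := by
      rw [w2] at hw2
      exact (mul_eq_zero.mp hw2.symm).resolve_left hh
    let y : Fin 8 → k := ![b, c 0, 0, 0, 0, 0, 0, 0]
    have hy : h • (fun i => C (y i)) = w := by
      apply vec_ext
      · show h * C b = w 0
        rw [hb]; ring
      · show h * C (c 0) = w 1
        rw [w1]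
      · show h * C 0 = w 2
        rw [w2, C_0, mul_zero]
      · show h * C 0 = w 3
        rw [w3, C_0, mul_zero]
      · show h * C 0 = w 4
        rw [w4, C_0, mul_zero]
      · show h * C 0 = w 5
        rw [w5, C_0, mul_zero]
      · show h * C 0 = w 6
        rw [w6, C_0, mul_zero]
      · show h * C 0 = w 7
        rw [w7, C_0, mul_zero]
    have hyW : (fun i => C (y i)) ∈ W := hsat h _ hh (by rw [hy]; exact hw)
    refine ⟨(fun i => C (y i)), const_mem_cgSub hyW, ?_⟩
    funext i
    fin_cases i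
    · rfl
    · show (C 0 : k[X]) = C (c 1)
      rw [hc1, C_0])
  intro w hw
  refine ⟨hall w hw, ?_⟩
  have h1 : φ2 k w ∈ G.map (φ2 k) := mem_of_cv _ _ (key w hw)
  obtain ⟨w', hw', e⟩ := h1
  obtain ⟨w2, w3, w4, w5, w6, w7⟩ := hall w hw
  obtain ⟨v2, v3, v4, v5, v6, v7⟩ := hall w' hw'.1
  have h0 : (w - w') 0 = 0 := by
    apply only0 hsat hne (W.sub_mem hw hw'.1)
    · show w 1 - w' 1 = 0
      have : w' 1 = w 1 := congrFun e 0
      rw [this, sub_self]
    · show w 2 - w' 2 = 0
      rw [w2, v2, sub_self]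
    · show w 3 - w' 3 = 0
      rw [w3, v3, sub_self]
    · show w 4 - w' 4 = 0
      rw [w4, v4, sub_self]
    · show w 5 - w' 5 = 0
      rw [w5, v5, sub_self]
    · show w 6 - w' 6 = 0
      rw [w6, v6, sub_self]
    · show w 7 - w' 7 = 0
      rw [w7, v7, sub_self]
  have hww : w = w' := by
    apply vec_ext
    · exact sub_eq_zero.mp h0
    · exact (congrFun e 0).symm
    · rw [w2, v2]
    · rw [w3, v3]
    · rw [w4, v4]
    · rw [w5, v5]
    · rw [w6, v6]
    · rw [w7, v7]
  rw [hww]; exact hw'.2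

/-- embedding of the `l, L` coordinates -/
def j12 (k : Type*) [Field k] [CharZero k] : (Fin 2 → k[X]) →ₗ[k[X]] (Fin 8 → k[X]) where
  toFun f := ![0, f 0, f 1, 0, 0, 0, 0, 0]
  map_add' f g := by
    apply vec_ext
    · show (0 : k[X]) = 0 + 0
      ring
    · rfl
    · rfl
    all_goals
      show (0 : k[X]) = 0 + 0
      ring
  map_smul' r f := by
    apply vec_ext
    · show (0 : k[X]) = r * 0
      ring
    · rfl
    · rfl
    all_goals
      show (0 : k[X]) = r * 0
      ring

theorem exists_proj2 (C1 : Submodule k (Fin 2 → k)) :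
    ∃ p : Fin 2 → Fin 2 → k, (∀ c ∈ C1, ∀ i, p i 0 * c 0 + p i 1 * c 1 = 0) ∧
      ∀ c : Fin 2 → k, (fun i => c i - (p i 0 * c 0 + p i 1 * c 1)) ∈ C1 := by
  obtain ⟨Q, hQ⟩ := C1.exists_isCompl
  let π : (Fin 2 → k) →ₗ[k] Q := Submodule.projectionOnto Q C1 hQ.symm
  let g : (Fin 2 → k) →ₗ[k] (Fin 2 → k) := Q.subtype ∘ₗ π
  have hg : ∀ c : Fin 2 → k, ∀ i,
      g c i = g (Pi.single 0 1) i * c 0 + g (Pi.single 1 1) i * c 1 := by
    intro c i
    have hc : c = c 0 • Pi.single 0 1 + c 1 • Pi.single 1 1 := by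
      funext j
      fin_cases j <;> simp
    conv_lhs => rw [hc]
    rw [map_add, map_smul, map_smul]
    show c 0 * _ + c 1 * _ = _
    ring
  refine ⟨fun i j => g (Pi.single j 1) i, ?_, ?_⟩
  · intro c hc i
    have h1 : π c = 0 := by
      have : c ∈ LinearMap.ker π := by
        show c ∈ LinearMap.ker (Submodule.projectionOnto Q C1 hQ.symm)
        rw [Submodule.ker_projectionOnto]; exact hc
      exact LinearMap.mem_ker.mp this
    have h2 : g c = 0 := by
      show ((π c : Q) : Fin 2 → k) = 0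
      rw [h1]; rfl
    rw [← hg c i, h2]; rfl
  · intro c
    have h3 : (fun i => c i - (g (Pi.single 0 1) i * c 0 + g (Pi.single 1 1) i * c 1)) =
        c - g c := by
      funext i
      rw [← hg c i]; rfl
    rw [h3]
    have h4 : π (c - g c) = 0 := by
      rw [map_sub]
      have : π (g c) = π c := by
        show π ((π c : Q) : Fin 2 → k) = π c
        exact Submodule.projectionOnto_apply_left hQ.symm (π c)
      rw [this, sub_self]
    have : c - g c ∈ LinearMap.ker (Submodule.projectionOnto Q C1 hQ.symm) :=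
      LinearMap.mem_ker.mpr h4
    rwa [Submodule.ker_projectionOnto] at this

/-- If `e_1 ∈ W`, then the elements of `W` without `F,T` part have all their coefficient vectors
in `W`. -/
theorem caseE {W : Submodule k[X] (Fin 8 → k[X])} (hsat : Sat W) (hst : Stab W)
    (he : ev k 0 ∈ W) : ∀ w ∈ W, w ∈ ftZero k → ∀ m, cv w m ∈ W := by
  -- the submodule U
  let U : Submodule k[X] (Fin 8 → k[X]) := W ⊓ ftZero k
  have hU : Stab U := by
    rintro w ⟨hw, w6, w7⟩
    refine ⟨hst w hw, ?_, ?_⟩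
    · rw [NT_6, w6, w7]; unfold nF; rw [th_zero]; ring
    · rw [NT_7, w6, w7]; unfold nT; rw [th_zero]; ring
  -- elements of W0 U
  have dec0 : ∀ w ∈ W0 U, j12 k (φ2 k w) = w - w 0 • ev k 0 := by
    intro w hw
    obtain ⟨⟨hwW, w6, w7⟩, hw3⟩ := mem_W0.mp hw
    obtain ⟨w3, w4, w5⟩ := φ3_zero.mp hw3
    apply vec_ext
    · show 0 = w 0 - w 0 * ev k 0 0
      rw [ev_same]; ring
    · show w 1 = w 1 - w 0 * ev k 0 1
      rw [ev_ne (by decide)]; ring
    · show w 2 = w 2 - w 0 * ev k 0 2
      rw [ev_ne (by decide)]; ring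
    · show 0 = w 3 - w 0 * ev k 0 3
      rw [ev_ne (by decide), w3]; ring
    · show 0 = w 4 - w 0 * ev k 0 4
      rw [ev_ne (by decide), w4]; ring
    · show 0 = w 5 - w 0 * ev k 0 5
      rw [ev_ne (by decide), w5]; ring
    · show 0 = w 6 - w 0 * ev k 0 6
      rw [ev_ne (by decide), w6]; ring
    · show 0 = w 7 - w 0 * ev k 0 7
      rw [ev_ne (by decide), w7]; ring
  have B1 : ∀ w ∈ W0 U, ∀ m, j12 k (cv (φ2 k w) m) ∈ W := by
    intro w hw m
    have key := tq (W0 U) (stab_W0 hU) (φ2 k) (fun w hw i => hφ2 w (mem_W0.mp hw).2 i)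
      (W.comap (j12 k)) (by
        intro w hw h hh c hc
        rw [Submodule.mem_comap]
        apply hsat h _ hh
        rw [← map_smul, ← hc, dec0 w hw]
        exact W.sub_mem (mem_W0.mp hw).1.1 (W.smul_mem _ he)) w hw m
    exact key
  have B1' : ∀ w ∈ W0 U, ∀ m, cv w m ∈ W := by
    intro w hw m
    obtain ⟨⟨hwW, w6, w7⟩, hw3⟩ := mem_W0.mp hw
    obtain ⟨w3, w4, w5⟩ := φ3_zero.mp hw3
    have : cv w m = C ((w 0).coeff m) • ev k 0 + j12 k (cv (φ2 k w) m) := by
      apply vec_ext
      · show C ((w 0).coeff m) = C ((w 0).coeff m) * ev k 0 0 + 0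
        rw [ev_same]; ring
      · show C ((w 1).coeff m) = C ((w 0).coeff m) * ev k 0 1 + C ((w 1).coeff m)
        rw [ev_ne (by decide)]; ring
      · show C ((w 2).coeff m) = C ((w 0).coeff m) * ev k 0 2 + C ((w 2).coeff m)
        rw [ev_ne (by decide)]; ring
      · show C ((w 3).coeff m) = C ((w 0).coeff m) * ev k 0 3 + 0
        rw [ev_ne (by decide), w3, coeff_zero, C_0]; ring
      · show C ((w 4).coeff m) = C ((w 0).coeff m) * ev k 0 4 + 0
        rw [ev_ne (by decide), w4, coeff_zero, C_0]; ring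
      · show C ((w 5).coeff m) = C ((w 0).coeff m) * ev k 0 5 + 0
        rw [ev_ne (by decide), w5, coeff_zero, C_0]; ring
      · show C ((w 6).coeff m) = C ((w 0).coeff m) * ev k 0 6 + 0
        rw [ev_ne (by decide), w6, coeff_zero, C_0]; ring
      · show C ((w 7).coeff m) = C ((w 0).coeff m) * ev k 0 7 + 0
        rw [ev_ne (by decide), w7, coeff_zero, C_0]; ring
    rw [this]
    exact W.add_mem (W.smul_mem _ he) (B1 w hw m)
  -- the constants of the (l, L) part
  let C1 : Submodule k (Fin 2 → k) :=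
    { carrier := {c | j12 k (fun i => C (c i)) ∈ W}
      add_mem' := by
        intro c d hc hd
        have : (fun i => C ((c + d) i)) = (fun i => C (c i)) + fun i => C (d i) := by
          funext i
          show C (c i + d i) = C (c i) + C (d i)
          rw [C_add]
        show j12 k (fun i => C ((c + d) i)) ∈ W
        rw [this, map_add]
        exact W.add_mem hc hd
      zero_mem' := by
        have : (fun i => C ((0 : Fin 2 → k) i)) = (0 : Fin 2 → k[X]) := by
          funext i
          show C (0 : k) = 0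
          rw [C_0]
        show j12 k (fun i => C ((0 : Fin 2 → k) i)) ∈ W
        rw [this, map_zero]
        exact W.zero_mem
      smul_mem' := by
        intro r c hc
        have : (fun i => C ((r • c) i)) = C r • fun i => C (c i) := by
          funext i
          show C (r * c i) = C r * C (c i)
          rw [C_mul]
        show j12 k (fun i => C ((r • c) i)) ∈ W
        rw [this, map_smul]
        exact W.smul_mem _ hc }
  obtain ⟨p, hp1, hp2⟩ := exists_proj2 C1
  have hC1 : ∀ f : Fin 2 → k[X], (∀ m, j12 k (cv f m) ∈ W) → ∀ i,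
      C (p i 0) * f 0 + C (p i 1) * f 1 = 0 := by
    intro f hf i
    ext m
    rw [coeff_add, coeff_C_mul, coeff_C_mul, coeff_zero]
    exact hp1 (fun i => (f i).coeff m) (hf m) i
  have hC2 : ∀ f : Fin 2 → k[X],
      j12 k (fun i => f i - (C (p i 0) * f 0 + C (p i 1) * f 1)) ∈ W := by
    intro f
    have h1 : (fun i => f i - (C (p i 0) * f 0 + C (p i 1) * f 1)) ∈ W.comap (j12 k) := by
      apply mem_of_cv
      intro m
      have h2 := hp2 (fun i => (f i).coeff m)
      have h3 : cv (fun i => f i - (C (p i 0) * f 0 + C (p i 1) * f 1)) m =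
          fun i => C ((f i).coeff m - (p i 0 * (f 0).coeff m + p i 1 * (f 1).coeff m)) := by
        funext i
        show C ((f i - (C (p i 0) * f 0 + C (p i 1) * f 1)).coeff m) = _
        rw [coeff_sub, coeff_add, coeff_C_mul, coeff_C_mul]
      rw [h3]
      exact h2
    exact h1
  -- main step
  have B2 : ∀ w ∈ U, ∀ m, cv (φ3 k w) m ∈ (cgSub U).map (φ3 k) := by
    refine tq U hU (φ3 k) (fun w _ i => hφ3 w i) _ ?_
    intro w hw h hh c hc
    obtain ⟨hwW, w6, w7⟩ := hw
    have hs : sh h w ∈ U := sh_mem hU ⟨hwW, w6, w7⟩ h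
    have hs3 : φ3 k (sh h w) = 0 :=
      sh_ker (W₀ := U) (φ3 k) (fun w _ i => hφ3 w i) ⟨hwW, w6, w7⟩ hc
    have hs0 : sh h w ∈ W0 U := mem_W0.mpr ⟨hs, hs3⟩
    have w3 : w 3 = h * C (c 0) := congrFun hc 0
    have w4 : w 4 = h * C (c 1) := congrFun hc 1
    have w5 : w 5 = h * C (c 2) := congrFun hc 2
    have hz := hC1 (φ2 k (sh h w)) (B1 _ hs0)
    have hz' : ∀ i : Fin 2, ∃ y : k, C (p i 0) * w 1 + C (p i 1) * w 2 = C y * h := by
      intro i
      have e1 : C (p i 0) * sh h w 1 + C (p i 1) * sh h w 2 = 0 := hz i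
      rw [sh_apply, sh_apply, NT_1, NT_2, w3, w4, w5] at e1
      set z := C (p i 0) * w 1 + C (p i 1) * w 2 with hzdef
      set om := - (C (p i 0) * (-(C (1 / 2) * X * (X + 1) * C (c 2))
          + (X * (X - 1) - C (1 / 2) * X * (X + 1)) * C (c 1))
        + C (p i 1) * ((X ^ 2 - 1) * C (c 0) - X * (X + 1) * C (c 2)
          + X * (X - 1) * C (c 1))) with hom
      have e2 : h * th z - th h * z = h ^ 2 * om := by
        rw [hzdef, hom, th_add, th_C_mul, th_C_mul]
        linear_combination e1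
      obtain ⟨o0, o1, o2⟩ := residue_zero hh e2
      have hdeg : natDegree om ≤ 2 := by
        rw [hom]
        compute_degree
      have hom0 : om = 0 := eq_zero_of_quadratic hdeg o0 o1 o2
      rw [hom0, mul_zero] at e2
      exact residue_const hh e2
    choose y hy using hz'
    -- the lift
    let f : Fin 2 → k[X] := φ2 k w
    have hv : w - w 0 • ev k 0 -
        j12 k (fun i => f i - (C (p i 0) * f 0 + C (p i 1) * f 1)) ∈ W :=
      W.sub_mem (W.sub_mem hwW (W.smul_mem _ he)) (hC2 f)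
    let yy : Fin 8 → k := ![0, y 0, y 1, c 0, c 1, c 2, 0, 0]
    have hyy : h • (fun i => C (yy i)) = w - w 0 • ev k 0 -
        j12 k (fun i => f i - (C (p i 0) * f 0 + C (p i 1) * f 1)) := by
      apply vec_ext
      · show h * C 0 = w 0 - w 0 * ev k 0 0 - 0
        rw [ev_same, C_0]; ring
      · show h * C (y 0) = w 1 - w 0 * ev k 0 1 - (w 1 - (C (p 0 0) * w 1 + C (p 0 1) * w 2))
        rw [ev_ne (by decide), hy 0]; ring
      · show h * C (y 1) = w 2 - w 0 * ev k 0 2 - (w 2 - (C (p 1 0) * w 1 + C (p 1 1) * w 2))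
        rw [ev_ne (by decide), hy 1]; ring
      · show h * C (c 0) = w 3 - w 0 * ev k 0 3 - 0
        rw [ev_ne (by decide), w3]; ring
      · show h * C (c 1) = w 4 - w 0 * ev k 0 4 - 0
        rw [ev_ne (by decide), w4]; ring
      · show h * C (c 2) = w 5 - w 0 * ev k 0 5 - 0
        rw [ev_ne (by decide), w5]; ring
      · show h * C 0 = w 6 - w 0 * ev k 0 6 - 0
        rw [ev_ne (by decide), w6, C_0]; ring
      · show h * C 0 = w 7 - w 0 * ev k 0 7 - 0
        rw [ev_ne (by decide), w7, C_0]; ring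
    have hyW : (fun i => C (yy i)) ∈ W := hsat h _ hh (by rw [hyy]; exact hv)
    have hyU : (fun i => C (yy i)) ∈ U := by
      refine ⟨hyW, ?_, ?_⟩
      · show C (0 : k) = 0
        exact C_0
      · show C (0 : k) = 0
        exact C_0
    refine ⟨(fun i => C (yy i)), const_mem_cgSub hyU, ?_⟩
    funext i
    fin_cases i <;> rfl
  intro w hw hft m
  have hwU : w ∈ U := ⟨hw, hft⟩
  have h1 : φ3 k w ∈ (cgSub U).map (φ3 k) := mem_of_cv _ _ (B2 w hwU)
  obtain ⟨w', hw', e⟩ := h1
  have h2 : w - w' ∈ W0 U := mem_W0.mpr ⟨U.sub_mem hwU hw'.1, by rw [map_sub, e, sub_self]⟩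
  have h3 : cv w m = cv (w - w') m + cv w' m := by
    funext i
    show C ((w i).coeff m) = C ((w i - w' i).coeff m) + C ((w' i).coeff m)
    rw [← C_add, ← coeff_add, sub_add_cancel]
  rw [h3]
  exact W.add_mem (B1' _ h2 m) (hw'.2 m).1

/-- **Theorem Z2 (i)**: every saturated stable submodule is generated by constant vectors. -/
theorem cv_mem {W : Submodule k[X] (Fin 8 → k[X])} (hsat : Sat W) (hst : Stab W) :
    ∀ w ∈ W, ∀ m, cv w m ∈ W := by
  by_cases he : ev k 0 ∈ W
  · intro w hw m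
    by_cases hft : ∀ w ∈ W, w ∈ ftZero k
    · exact caseE hsat hst he w hw (hft w hw) m
    · obtain ⟨h6, h7, -⟩ := ft_mem hsat hst hft
      have h1 : w - w 6 • ev k 6 - w 7 • ev k 7 ∈ W :=
        W.sub_mem (W.sub_mem hw (W.smul_mem _ h6)) (W.smul_mem _ h7)
      have h2 : w - w 6 • ev k 6 - w 7 • ev k 7 ∈ ftZero k := by
        constructor
        · show w 6 - w 6 * ev k 6 6 - w 7 * ev k 7 6 = 0
          rw [ev_same, ev_ne (by decide)]; ring
        · show w 7 - w 6 * ev k 6 7 - w 7 * ev k 7 7 = 0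
          rw [ev_same, ev_ne (by decide)]; ring
      have h3 := caseE hsat hst he _ h1 h2 m
      have h4 : cv w m = cv (w - w 6 • ev k 6 - w 7 • ev k 7) m +
          (C ((w 6).coeff m) • ev k 6 + C ((w 7).coeff m) • ev k 7) := by
        have gen : ∀ i : Fin 8, (i ≠ 6) → (i ≠ 7) → C ((w i).coeff m) =
            C ((w i - w 6 * ev k 6 i - w 7 * ev k 7 i).coeff m) +
            (C ((w 6).coeff m) * ev k 6 i + C ((w 7).coeff m) * ev k 7 i) := by
          intro i h6 h7
          rw [ev_ne h6, ev_ne h7]; simp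
        apply vec_ext
        · exact gen 0 (by decide) (by decide)
        · exact gen 1 (by decide) (by decide)
        · exact gen 2 (by decide) (by decide)
        · exact gen 3 (by decide) (by decide)
        · exact gen 4 (by decide) (by decide)
        · exact gen 5 (by decide) (by decide)
        · show C ((w 6).coeff m) = C ((w 6 - w 6 * ev k 6 6 - w 7 * ev k 7 6).coeff m) +
            (C ((w 6).coeff m) * ev k 6 6 + C ((w 7).coeff m) * ev k 7 6)
          rw [ev_same, ev_ne (by decide)]; simp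
        · show C ((w 7).coeff m) = C ((w 7 - w 6 * ev k 6 7 - w 7 * ev k 7 7).coeff m) +
            (C ((w 6).coeff m) * ev k 6 7 + C ((w 7).coeff m) * ev k 7 7)
          rw [ev_same, ev_ne (by decide)]; simp
      rw [h4]
      exact W.add_mem h3 (W.add_mem (W.smul_mem _ h6) (W.smul_mem _ h7))
  · intro w hw m
    exact (caseN hsat hst he w hw).2 m

end

end Vale.Agent.P030.H200
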