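import Vale.Agent.P030.H200.Stable2

/-!
# P030, non-vanishing, part Z2 (end): the constant space `Λ` of a vector `P` and its structure
-/

set_option autoImplicit false
set_option linter.unusedSectionVars false

open Polynomial

namespace Vale.Agent.P030.H200

variable {k : Type*} [Field k] [CharZero k]

noncomputable section

theorem nF_add (a b c d : k[X]) : nF (a + c) (b + d) = nF a b + nF c d := by
  unfold nF; rw [th_add]; ring

theorem nT_add (a b c d : k[X]) : nT (a + c) (b + d) = nT a b + nT c d := by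
  unfold nT; rw [th_add]; ring

theorem NT_add (v w : Fin 8 → k[X]) : NT (v + w) = NT v + NT w := by
  apply vec_ext
  · show th (v 0 + w 0) - X * (X + 1) * (v 2 + w 2) + C (1 / 4) * X * (v 7 + w 7) =
      NT v 0 + NT w 0
    rw [NT_0, NT_0, th_add]; ring
  · show th (v 1 + w 1) - C (1 / 2) * X * (X + 1) * (v 5 + w 5)
      + (X * (X - 1) - C (1 / 2) * X * (X + 1)) * (v 4 + w 4) = NT v 1 + NT w 1
    rw [NT_1, NT_1, th_add]; ring
  · show th (v 2 + w 2) + (X ^ 2 - 1) * (v 3 + w 3)
      - X * (X + 1) * (v 5 + w 5) + X * (X - 1) * (v 4 + w 4) = NT v 2 + NT w 2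
    rw [NT_2, NT_2, th_add]; ring
  · exact th_add _ _
  · exact th_add _ _
  · exact th_add _ _
  · exact nF_add _ _ _ _
  · exact nT_add _ _ _ _

theorem NT_smul (r : k[X]) (w : Fin 8 → k[X]) : NT (r • w) = r • NT w + th r • w := by
  apply vec_ext
  · show th (r * w 0) - X * (X + 1) * (r * w 2) + C (1 / 4) * X * (r * w 7) =
      r * NT w 0 + th r * w 0
    rw [NT_0, th_mul]; ring
  · show th (r * w 1) - C (1 / 2) * X * (X + 1) * (r * w 5)
      + (X * (X - 1) - C (1 / 2) * X * (X + 1)) * (r * w 4) = r * NT w 1 + th r * w 1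
    rw [NT_1, th_mul]; ring
  · show th (r * w 2) + (X ^ 2 - 1) * (r * w 3)
      - X * (X + 1) * (r * w 5) + X * (X - 1) * (r * w 4) = r * NT w 2 + th r * w 2
    rw [NT_2, th_mul]; ring
  · show th (r * w 3) = r * th (w 3) + th r * w 3
    rw [th_mul]; ring
  · show th (r * w 4) = r * th (w 4) + th r * w 4
    rw [th_mul]; ring
  · show th (r * w 5) = r * th (w 5) + th r * w 5
    rw [th_mul]; ring
  · show nF (r * w 6) (r * w 7) = r * nF (w 6) (w 7) + th r * w 6
    rw [nF_smul]; ring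
  · show nT (r * w 6) (r * w 7) = r * nT (w 6) (w 7) + th r * w 7
    rw [nT_smul]; ring

theorem NT_zero : NT (0 : Fin 8 → k[X]) = 0 := by
  have := NT_smul (0 : k[X]) (0 : Fin 8 → k[X])
  rw [zero_smul, th_zero, zero_smul, zero_smul, add_zero] at this
  exact this

/-- saturation of a submodule -/
def satOf (S : Submodule k[X] (Fin 8 → k[X])) : Submodule k[X] (Fin 8 → k[X]) where
  carrier := {w | ∃ h : k[X], h ≠ 0 ∧ h • w ∈ S}
  add_mem' := by
    rintro f g ⟨h1, h10, e1⟩ ⟨h2, h20, e2⟩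
    refine ⟨h1 * h2, mul_ne_zero h10 h20, ?_⟩
    have : (h1 * h2) • (f + g) = h2 • (h1 • f) + h1 • (h2 • g) := by
      rw [smul_add, smul_smul, smul_smul, mul_comm h2 h1]
    rw [this]
    exact S.add_mem (S.smul_mem _ e1) (S.smul_mem _ e2)
  zero_mem' := ⟨1, one_ne_zero, by rw [smul_zero]; exact S.zero_mem⟩
  smul_mem' := by
    rintro r f ⟨h1, h10, e1⟩
    refine ⟨h1, h10, ?_⟩
    rw [smul_comm]
    exact S.smul_mem _ e1

theorem le_satOf (S : Submodule k[X] (Fin 8 → k[X])) : S ≤ satOf S :=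
  fun w hw => ⟨1, one_ne_zero, by rwa [one_smul]⟩

theorem sat_satOf (S : Submodule k[X] (Fin 8 → k[X])) : Sat (satOf S) := by
  rintro h w h0 ⟨h1, h10, e1⟩
  exact ⟨h1 * h, mul_ne_zero h10 h0, by rwa [mul_smul]⟩

theorem satOf_le {S T : Submodule k[X] (Fin 8 → k[X])} (hT : Sat T) (h : S ≤ T) :
    satOf S ≤ T := by
  rintro w ⟨h1, h10, e1⟩
  exact hT h1 w h10 (h e1)

theorem stab_satOf {S : Submodule k[X] (Fin 8 → k[X])} (h : ∀ w ∈ S, NT w ∈ satOf S) :
    Stab (satOf S) := by
  rintro w ⟨h1, h10, e1⟩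
  apply sat_satOf S h1 _ h10
  have : h1 • NT w = NT (h1 • w) - th h1 • w := by rw [NT_smul, add_sub_cancel_right]
  rw [this]
  exact (satOf S).sub_mem (h _ e1) ((satOf S).smul_mem _ ⟨h1, h10, e1⟩)

/-- span of the first `s` iterates -/
def spanIter (P : Fin 8 → k[X]) (s : ℕ) : Submodule k[X] (Fin 8 → k[X]) :=
  Submodule.span k[X] ((fun n => NT^[n] P) '' {n | n < s})

theorem NT_mem_of_span {P : Fin 8 → k[X]} {I : Set ℕ} {T : Submodule k[X] (Fin 8 → k[X])}
    (hT : Submodule.span k[X] ((fun n => NT^[n] P) '' I) ≤ T)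
    (h : ∀ n ∈ I, NT^[n + 1] P ∈ T) :
    ∀ w ∈ Submodule.span k[X] ((fun n => NT^[n] P) '' I), NT w ∈ T := by
  intro w hw
  induction hw using Submodule.span_induction with
  | mem x hx =>
    obtain ⟨n, hn, rfl⟩ := hx
    have := h n hn
    rw [Function.iterate_succ_apply'] at this
    exact this
  | zero => rw [NT_zero]; exact T.zero_mem
  | add x y _ _ h1 h2 => rw [NT_add]; exact T.add_mem h1 h2
  | smul r x hx h1 =>
    rw [NT_smul]
    exact T.add_mem (T.smul_mem _ h1) (T.smul_mem _ (hT hx))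

/-- the saturated stable submodule generated by `P` -/
def WP (P : Fin 8 → k[X]) : Submodule k[X] (Fin 8 → k[X]) :=
  satOf (Submodule.span k[X] ((fun n => NT^[n] P) '' Set.univ))

theorem sat_WP (P : Fin 8 → k[X]) : Sat (WP P) := sat_satOf _

theorem iter_mem_WP (P : Fin 8 → k[X]) (n : ℕ) : NT^[n] P ∈ WP P :=
  le_satOf _ (Submodule.subset_span ⟨n, trivial, rfl⟩)

theorem stab_WP (P : Fin 8 → k[X]) : Stab (WP P) :=
  stab_satOf (NT_mem_of_span (le_satOf _) (fun n _ => iter_mem_WP P (n + 1)))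

/-- a dependent family has a first dependent member -/
theorem exists_dep {M : Type*} [AddCommGroup M] [Module k[X] M] (v : ℕ → M) (n : ℕ)
    (h : ¬ LinearIndependent k[X] (fun i : Fin n => v i)) :
    ∃ s < n, ∃ h : k[X], h ≠ 0 ∧ h • v s ∈ Submodule.span k[X] (v '' {j | j < s}) := by
  classical
  rw [Fintype.not_linearIndependent_iff] at h
  obtain ⟨g, hg, i0, hi0⟩ := h
  let I : Finset (Fin n) := Finset.univ.filter (fun i => g i ≠ 0)
  have hI : I.Nonempty := ⟨i0, by simp [I, hi0]⟩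
  obtain ⟨s, hs, hmax⟩ := I.exists_max_image (fun i => (i : ℕ)) hI
  have hgs : g s ≠ 0 := by simpa [I] using hs
  refine ⟨s, s.2, g s, hgs, ?_⟩
  have h1 : g s • v s = - ∑ i ∈ Finset.univ.erase s, g i • v i := by
    rw [← Finset.add_sum_erase _ _ (Finset.mem_univ s)] at hg
    exact eq_neg_of_add_eq_zero_left hg
  rw [h1]
  apply Submodule.neg_mem
  apply Submodule.sum_mem
  intro i hi
  by_cases hgi : g i = 0
  · rw [hgi, zero_smul]; exact Submodule.zero_mem _
  · apply Submodule.smul_mem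
    apply Submodule.subset_span
    refine ⟨i, ?_, rfl⟩
    have h2 : (i : ℕ) ≤ s := hmax i (by simp [I, hgi])
    have h3 : i ≠ s := (Finset.mem_erase.mp hi).1
    have h4 : (i : ℕ) ≠ s := fun h => h3 (Fin.ext h)
    show (i : ℕ) < s
    omega

/-- The space of constant vectors in `W`. -/
def constOf (W : Submodule k[X] (Fin 8 → k[X])) : Submodule k (Fin 8 → k) where
  carrier := {c | (fun i => C (c i)) ∈ W}
  add_mem' := by
    intro c d hc hd
    have : (fun i => C ((c + d) i)) = (fun i => C (c i)) + fun i => C (d i) := by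
      funext i
      show C (c i + d i) = C (c i) + C (d i)
      rw [C_add]
    show (fun i => C ((c + d) i)) ∈ W
    rw [this]
    exact W.add_mem hc hd
  zero_mem' := by
    have : (fun i => C ((0 : Fin 8 → k) i)) = (0 : Fin 8 → k[X]) := by
      funext i
      show C (0 : k) = 0
      rw [C_0]
    show (fun i => C ((0 : Fin 8 → k) i)) ∈ W
    rw [this]
    exact W.zero_mem
  smul_mem' := by
    intro r c hc
    have : (fun i => C ((r • c) i)) = C r • fun i => C (c i) := by
      funext i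
      show C (r * c i) = C r * C (c i)
      rw [C_mul]
    show (fun i => C ((r • c) i)) ∈ W
    rw [this]
    exact W.smul_mem _ hc

theorem mem_constOf {W : Submodule k[X] (Fin 8 → k[X])} {c : Fin 8 → k} :
    c ∈ constOf W ↔ (fun i => C (c i)) ∈ W := Iff.rfl

theorem linearIndependent_const {r : ℕ} {b : Fin r → Fin 8 → k} (hb : LinearIndependent k b) :
    LinearIndependent k[X] (fun j => (fun i => C (b j i) : Fin 8 → k[X])) := by
  rw [Fintype.linearIndependent_iff] at hb ⊢
  intro g hg j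
  ext m
  rw [coeff_zero]
  apply hb (fun j => (g j).coeff m) ?_ j
  funext i
  rw [Finset.sum_apply]
  have h1 := congrArg (fun p => coeff p m) (congrFun hg i)
  simp only [Finset.sum_apply, Pi.smul_apply, smul_eq_mul, Pi.zero_apply, coeff_zero,
    finsetSum_coeff, coeff_mul_C] at h1
  simpa using h1

/-- the first `r = dim Λ` iterates are independent -/
theorem iter_independent (P : Fin 8 → k[X]) (hP : P ≠ 0) :
    LinearIndependent k[X]
      (fun i : Fin (Module.finrank k (constOf (WP P))) => NT^[(i : ℕ)] P) := by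
  by_contra hdep
  set r := Module.finrank k (constOf (WP P)) with hr
  obtain ⟨s, hs, h, hh, hmem⟩ := exists_dep (fun n => NT^[n] P) r hdep
  -- the saturated span of the first s iterates is stable
  have hst : Stab (satOf (spanIter P s)) := by
    apply stab_satOf
    apply NT_mem_of_span (le_satOf _)
    intro n hn
    have hn' : n < s := hn
    rcases Nat.lt_or_ge (n + 1) s with h1 | h1
    · exact le_satOf _ (Submodule.subset_span ⟨n + 1, h1, rfl⟩)
    · have : n + 1 = s := by omega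
      rw [this]
      exact ⟨h, hh, hmem⟩
  have hs0 : s ≠ 0 := by
    intro h0
    subst h0
    have : {j : ℕ | j < 0} = ∅ := by ext; simp
    rw [this, Set.image_empty, Submodule.span_empty, Submodule.mem_bot] at hmem
    apply hP
    rcases smul_eq_zero.mp hmem with h1 | h1
    · exact absurd h1 hh
    · exact h1
  have hP0 : P ∈ satOf (spanIter P s) :=
    le_satOf _ (Submodule.subset_span ⟨0, Nat.pos_of_ne_zero hs0, rfl⟩)
  have hiter : ∀ n, NT^[n] P ∈ satOf (spanIter P s) := by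
    intro n
    induction n with
    | zero => exact hP0
    | succ n ih => rw [Function.iterate_succ_apply']; exact hst _ ih
  have hle : WP P ≤ satOf (spanIter P s) := by
    apply satOf_le (sat_satOf _)
    rw [Submodule.span_le]
    rintro _ ⟨n, -, rfl⟩
    exact hiter n
  -- r independent elements in a module generated by s elements
  let b := Module.finBasis k (constOf (WP P))
  have hb : LinearIndependent k (fun j => ((b j : constOf (WP P)) : Fin 8 → k)) := by
    have := b.linearIndependent.map' (constOf (WP P)).subtype (Submodule.ker_subtype _)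
    exact this
  have hb2 := linearIndependent_const hb
  have hmem2 : ∀ j, ∃ h : k[X], h ≠ 0 ∧
      h • (fun i => C (((b j : constOf (WP P)) : Fin 8 → k) i) : Fin 8 → k[X])
        ∈ spanIter P s := fun j => hle (mem_constOf.mp (b j).2)
  choose H hH0 hH using hmem2
  have hb3 : LinearIndependent k[X] (fun j => H j •
      (fun i => C (((b j : constOf (WP P)) : Fin 8 → k) i) : Fin 8 → k[X])) := by
    rw [Fintype.linearIndependent_iff] at hb2 ⊢
    intro g hg j
    have h1 := hb2 (fun j => g j * H j) (by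
      rw [← hg]
      apply Finset.sum_congr rfl
      intro x _
      rw [smul_smul]) j
    exact (mul_eq_zero.mp h1).resolve_right (hH0 j)
  have hfin : ((fun n => NT^[n] P) '' {n | n < s}).Finite :=
    (Set.finite_lt_nat s).image _
  have : Fintype ((fun n => NT^[n] P) '' {n | n < s} : Set (Fin 8 → k[X])) := hfin.fintype
  have hcard := linearIndependent_le_span' _ hb3 ((fun n => NT^[n] P) '' {n | n < s}) (by
    rintro _ ⟨j, rfl⟩
    exact hH j)
  rw [Cardinal.mk_fintype, Fintype.card_fin] at hcard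
  have hcard2 : r ≤ Fintype.card ((fun n => NT^[n] P) '' {n | n < s} : Set (Fin 8 → k[X])) := by
    exact_mod_cast hcard
  have hcard3 : Fintype.card ((fun n => NT^[n] P) '' {n | n < s} : Set (Fin 8 → k[X])) ≤ s := by
    classical
    have h1 : ((fun n => NT^[n] P) '' {n | n < s} : Set (Fin 8 → k[X])) =
        ((Finset.range s).image (fun n => NT^[n] P) : Finset (Fin 8 → k[X])) := by
      ext x; simp
    rw [← Nat.card_eq_fintype_card, Nat.card_coe_set_eq, h1, Set.ncard_coe_finset]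
    exact Finset.card_image_le.trans (by rw [Finset.card_range])
  omega

/-- evaluation of an element of a constant-generated `W` -/
theorem eval_mem {W : Submodule k[X] (Fin 8 → k[X])} {w : Fin 8 → k[X]} (h : ∀ m, cv w m ∈ W)
    (a : k) : (fun i => (w i).eval a) ∈ constOf W := by
  rw [mem_constOf]
  set N := Finset.univ.sup (fun i => (w i).natDegree) with hN
  have h1 : (fun i => C ((w i).eval a)) = ∑ m ∈ Finset.range (N + 1), C (a ^ m) • cv w m := by
    funext i
    rw [Finset.sum_apply]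
    have h2 : (w i).natDegree < N + 1 :=
      Nat.lt_succ_of_le (Finset.le_sup (f := fun i => (w i).natDegree) (Finset.mem_univ i))
    rw [eval_eq_sum_range' h2, map_sum]
    apply Finset.sum_congr rfl
    intro m _
    show C ((w i).coeff m * a ^ m) = C (a ^ m) * C ((w i).coeff m)
    rw [← C_mul, mul_comm]
  rw [h1]
  exact W.sum_mem fun m _ => W.smul_mem _ (h m)

/-- The complete description of the constant spaces `Λ`. -/
structure StableConst (L : Submodule k (Fin 8 → k)) : Prop where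
  ft : (∃ v ∈ L, v 6 ≠ 0 ∨ v 7 ≠ 0) →
    (Pi.single 6 1 : Fin 8 → k) ∈ L ∧ (Pi.single 7 1 : Fin 8 → k) ∈ L ∧
      (Pi.single 0 1 : Fin 8 → k) ∈ L
  rk1 : (Pi.single 0 1 : Fin 8 → k) ∉ L → ∀ v ∈ L, v 2 = 0 ∧ v 3 = 0 ∧ v 4 = 0 ∧ v 5 = 0 ∧
      v 6 = 0 ∧ v 7 = 0
  sD : ∀ v ∈ L, v 3 • (Pi.single 2 1 : Fin 8 → k) ∈ L
  s6 : ∀ v ∈ L, v 4 • ((Pi.single 1 1 : Fin 8 → k) + Pi.single 2 1) ∈ L
  s1 : ∀ v ∈ L, v 2 • (Pi.single 0 1 : Fin 8 → k) + ((v 4 + v 5) / 2) • Pi.single 1 1
      + v 5 • Pi.single 2 1 ∈ L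

theorem ev_const (i : Fin 8) : (fun j => C ((Pi.single i 1 : Fin 8 → k) j)) = ev k i := by
  funext j
  unfold ev
  by_cases h : j = i
  · subst h; rw [Pi.single_eq_same, Pi.single_eq_same, C_1]
  · rw [Pi.single_eq_of_ne h, Pi.single_eq_of_ne h, C_0]

theorem const_ext {v w : Fin 8 → k} (h0 : v 0 = w 0) (h1 : v 1 = w 1) (h2 : v 2 = w 2)
    (h3 : v 3 = w 3) (h4 : v 4 = w 4) (h5 : v 5 = w 5) (h6 : v 6 = w 6) (h7 : v 7 = w 7) :
    v = w := by
  funext i
  fin_cases i
  · exact h0
  · exact h1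
  · exact h2
  · exact h3
  · exact h4
  · exact h5
  · exact h6
  · exact h7

theorem stableConst {W : Submodule k[X] (Fin 8 → k[X])} (hsat : Sat W) (hst : Stab W) :
    StableConst (constOf W) := by
  have hcg := cv_mem hsat hst
  -- reduction to vectors without F, T part
  have red : ∀ v ∈ constOf W, ∃ v' ∈ constOf W, v' 6 = 0 ∧ v' 7 = 0 ∧ v' 2 = v 2 ∧ v' 3 = v 3 ∧
      v' 4 = v 4 ∧ v' 5 = v 5 := by
    intro v hv
    by_cases hft : ∀ w ∈ W, w ∈ ftZero k
    · obtain ⟨h6, h7⟩ := hft _ hv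
      exact ⟨v, hv, C_eq_zero.mp h6, C_eq_zero.mp h7, rfl, rfl, rfl, rfl⟩
    · obtain ⟨h6, h7, -⟩ := ft_mem hsat hst hft
      have h6' : (Pi.single 6 1 : Fin 8 → k) ∈ constOf W := by
        rw [mem_constOf, ev_const]; exact h6
      have h7' : (Pi.single 7 1 : Fin 8 → k) ∈ constOf W := by
        rw [mem_constOf, ev_const]; exact h7
      refine ⟨v - v 6 • Pi.single 6 1 - v 7 • Pi.single 7 1,
        (constOf W).sub_mem ((constOf W).sub_mem hv ((constOf W).smul_mem _ h6'))
          ((constOf W).smul_mem _ h7'), ?_, ?_, ?_, ?_, ?_, ?_⟩ <;> simp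
  have evalNT : ∀ v ∈ constOf W, ∀ a : k,
      (fun i => (NT (fun i => C (v i)) i).eval a) ∈ constOf W := by
    intro v hv a
    exact eval_mem (hcg _ (hst _ hv)) a
  refine ⟨?_, ?_, ?_, ?_, ?_⟩
  · rintro ⟨v, hv, h⟩
    have hft : ¬ ∀ w ∈ W, w ∈ ftZero k := by
      intro h0
      obtain ⟨h6, h7⟩ := h0 _ hv
      rcases h with h | h
      · exact h (C_eq_zero.mp h6)
      · exact h (C_eq_zero.mp h7)
    obtain ⟨h6, h7, h0⟩ := ft_mem hsat hst hft
    refine ⟨?_, ?_, ?_⟩
    · rw [mem_constOf, ev_const]; exact h6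
    · rw [mem_constOf, ev_const]; exact h7
    · rw [mem_constOf, ev_const]; exact h0
  · intro hne v hv
    rw [mem_constOf, ev_const] at hne
    obtain ⟨⟨h2, h3, h4, h5, h6, h7⟩, -⟩ := caseN hsat hst hne _ hv
    exact ⟨C_eq_zero.mp h2, C_eq_zero.mp h3, C_eq_zero.mp h4, C_eq_zero.mp h5,
      C_eq_zero.mp h6, C_eq_zero.mp h7⟩
  · intro v hv
    obtain ⟨v', hv', h6, h7, h2, h3, h4, h5⟩ := red v hv
    have h := evalNT v' hv' 0
    have e : v 3 • (Pi.single 2 1 : Fin 8 → k) =
        - (fun i => (NT (fun i => C (v' i)) i).eval 0) := by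
      rw [← h3]
      apply const_ext
      · show v' 3 * (Pi.single 2 1 : Fin 8 → k) 0 = -(NT (fun i => C (v' i)) 0).eval 0
        rw [NT_0]; simp
      · show v' 3 * (Pi.single 2 1 : Fin 8 → k) 1 = -(NT (fun i => C (v' i)) 1).eval 0
        rw [NT_1]; simp
      · show v' 3 * (Pi.single 2 1 : Fin 8 → k) 2 = -(NT (fun i => C (v' i)) 2).eval 0
        rw [NT_2]; simp
      · show v' 3 * (Pi.single 2 1 : Fin 8 → k) 3 = -(NT (fun i => C (v' i)) 3).eval 0
        rw [NT_3]; simp
      · show v' 3 * (Pi.single 2 1 : Fin 8 → k) 4 = -(NT (fun i => C (v' i)) 4).eval 0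
        rw [NT_4]; simp
      · show v' 3 * (Pi.single 2 1 : Fin 8 → k) 5 = -(NT (fun i => C (v' i)) 5).eval 0
        rw [NT_5]; simp
      · show v' 3 * (Pi.single 2 1 : Fin 8 → k) 6 = -(NT (fun i => C (v' i)) 6).eval 0
        rw [NT_6, nF]; simp
      · show v' 3 * (Pi.single 2 1 : Fin 8 → k) 7 = -(NT (fun i => C (v' i)) 7).eval 0
        rw [NT_7, nT]; simp [h6]
    rw [e]
    exact (constOf W).neg_mem h
  · intro v hv
    obtain ⟨v', hv', h6, h7, h2, h3, h4, h5⟩ := red v hv
    have h := evalNT v' hv' (-1)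
    have e : v 4 • ((Pi.single 1 1 : Fin 8 → k) + Pi.single 2 1) =
        (1 / 2 : k) • (fun i => (NT (fun i => C (v' i)) i).eval (-1)) := by
      rw [← h4]
      apply const_ext
      · show v' 4 * ((Pi.single 1 1 : Fin 8 → k) 0 + (Pi.single 2 1 : Fin 8 → k) 0) =
          1 / 2 * (NT (fun i => C (v' i)) 0).eval (-1)
        rw [NT_0]; simp [h7]
      · show v' 4 * ((Pi.single 1 1 : Fin 8 → k) 1 + (Pi.single 2 1 : Fin 8 → k) 1) =
          1 / 2 * (NT (fun i => C (v' i)) 1).eval (-1)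
        rw [NT_1]; simp; ring
      · show v' 4 * ((Pi.single 1 1 : Fin 8 → k) 2 + (Pi.single 2 1 : Fin 8 → k) 2) =
          1 / 2 * (NT (fun i => C (v' i)) 2).eval (-1)
        rw [NT_2]; simp; ring
      · show v' 4 * ((Pi.single 1 1 : Fin 8 → k) 3 + (Pi.single 2 1 : Fin 8 → k) 3) =
          1 / 2 * (NT (fun i => C (v' i)) 3).eval (-1)
        rw [NT_3]; simp
      · show v' 4 * ((Pi.single 1 1 : Fin 8 → k) 4 + (Pi.single 2 1 : Fin 8 → k) 4) =
          1 / 2 * (NT (fun i => C (v' i)) 4).eval (-1)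
        rw [NT_4]; simp
      · show v' 4 * ((Pi.single 1 1 : Fin 8 → k) 5 + (Pi.single 2 1 : Fin 8 → k) 5) =
          1 / 2 * (NT (fun i => C (v' i)) 5).eval (-1)
        rw [NT_5]; simp
      · show v' 4 * ((Pi.single 1 1 : Fin 8 → k) 6 + (Pi.single 2 1 : Fin 8 → k) 6) =
          1 / 2 * (NT (fun i => C (v' i)) 6).eval (-1)
        rw [NT_6, nF]; simp [h7]
      · show v' 4 * ((Pi.single 1 1 : Fin 8 → k) 7 + (Pi.single 2 1 : Fin 8 → k) 7) =
          1 / 2 * (NT (fun i => C (v' i)) 7).eval (-1)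
        rw [NT_7, nT]; simp [h7]
    rw [e]
    exact (constOf W).smul_mem _ h
  · intro v hv
    obtain ⟨v', hv', h6, h7, h2, h3, h4, h5⟩ := red v hv
    have h := evalNT v' hv' 1
    have e : v 2 • (Pi.single 0 1 : Fin 8 → k) + ((v 4 + v 5) / 2) • Pi.single 1 1
        + v 5 • Pi.single 2 1 =
        (-(1 / 2) : k) • (fun i => (NT (fun i => C (v' i)) i).eval 1) := by
      rw [← h2, ← h4, ← h5]
      apply const_ext
      · show v' 2 * (Pi.single 0 1 : Fin 8 → k) 0 + (v' 4 + v' 5) / 2 * (Pi.single 1 1 : Fin 8 → k) 0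
          + v' 5 * (Pi.single 2 1 : Fin 8 → k) 0 =
          -(1 / 2) * (NT (fun i => C (v' i)) 0).eval 1
        rw [NT_0]; simp [h7]; ring
      · show v' 2 * (Pi.single 0 1 : Fin 8 → k) 1 + (v' 4 + v' 5) / 2 * (Pi.single 1 1 : Fin 8 → k) 1
          + v' 5 * (Pi.single 2 1 : Fin 8 → k) 1 =
          -(1 / 2) * (NT (fun i => C (v' i)) 1).eval 1
        rw [NT_1]; simp; ring
      · show v' 2 * (Pi.single 0 1 : Fin 8 → k) 2 + (v' 4 + v' 5) / 2 * (Pi.single 1 1 : Fin 8 → k) 2
          + v' 5 * (Pi.single 2 1 : Fin 8 → k) 2 =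
          -(1 / 2) * (NT (fun i => C (v' i)) 2).eval 1
        rw [NT_2]; simp; ring
      · show v' 2 * (Pi.single 0 1 : Fin 8 → k) 3 + (v' 4 + v' 5) / 2 * (Pi.single 1 1 : Fin 8 → k) 3
          + v' 5 * (Pi.single 2 1 : Fin 8 → k) 3 =
          -(1 / 2) * (NT (fun i => C (v' i)) 3).eval 1
        rw [NT_3]; simp
      · show v' 2 * (Pi.single 0 1 : Fin 8 → k) 4 + (v' 4 + v' 5) / 2 * (Pi.single 1 1 : Fin 8 → k) 4
          + v' 5 * (Pi.single 2 1 : Fin 8 → k) 4 =
          -(1 / 2) * (NT (fun i => C (v' i)) 4).eval 1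
        rw [NT_4]; simp
      · show v' 2 * (Pi.single 0 1 : Fin 8 → k) 5 + (v' 4 + v' 5) / 2 * (Pi.single 1 1 : Fin 8 → k) 5
          + v' 5 * (Pi.single 2 1 : Fin 8 → k) 5 =
          -(1 / 2) * (NT (fun i => C (v' i)) 5).eval 1
        rw [NT_5]; simp
      · show v' 2 * (Pi.single 0 1 : Fin 8 → k) 6 + (v' 4 + v' 5) / 2 * (Pi.single 1 1 : Fin 8 → k) 6
          + v' 5 * (Pi.single 2 1 : Fin 8 → k) 6 =
          -(1 / 2) * (NT (fun i => C (v' i)) 6).eval 1
        rw [NT_6, nF]; simp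
      · show v' 2 * (Pi.single 0 1 : Fin 8 → k) 7 + (v' 4 + v' 5) / 2 * (Pi.single 1 1 : Fin 8 → k) 7
          + v' 5 * (Pi.single 2 1 : Fin 8 → k) 7 =
          -(1 / 2) * (NT (fun i => C (v' i)) 7).eval 1
        rw [NT_7, nT]; simp [h6]
    rw [e]
    exact (constOf W).smul_mem _ h

/-- **Theorem Z2**, final form. For `P ≠ 0` there is a space `Λ` of constant vectors, with the
structure `StableConst`, such that all coefficient vectors of all iterates `NT^n P` lie in `Λ`,
and the first `dim Λ` iterates are linearly independent over `k[u]`. Moreover every `c ∈ Λ` is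
(up to a nonzero polynomial factor) a combination of iterates. -/
theorem Z2 (P : Fin 8 → k[X]) (hP : P ≠ 0) :
    ∃ L : Submodule k (Fin 8 → k), StableConst L ∧ L ≠ ⊥ ∧
      (∀ n m, (fun i => ((NT^[n] P) i).coeff m) ∈ L) ∧
      LinearIndependent k[X] (fun i : Fin (Module.finrank k L) => NT^[(i : ℕ)] P) ∧
      (∀ c ∈ L, ∃ h : k[X], h ≠ 0 ∧ h • (fun i => C (c i) : Fin 8 → k[X]) ∈
        Submodule.span k[X] ((fun n => NT^[n] P) '' Set.univ)) := by
  refine ⟨constOf (WP P), stableConst (sat_WP P) (stab_WP P), ?_, ?_, iter_independent P hP, ?_⟩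
  · intro h0
    apply hP
    funext i
    ext m
    have h1 := cv_mem (sat_WP P) (stab_WP P) _ (iter_mem_WP P 0) m
    have h2 : (fun i => (P i).coeff m) ∈ constOf (WP P) := h1
    rw [h0, Submodule.mem_bot] at h2
    rw [Pi.zero_apply, coeff_zero]
    exact congrFun h2 i
  · intro n m
    exact cv_mem (sat_WP P) (stab_WP P) _ (iter_mem_WP P n) m
  · intro c hc
    exact hc

end

end Vale.Agent.P030.H200
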