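import Vale.Agent.P030.H605.Table

/-!
# P030, NV: the finite table `TableSt`, dimensions 6, 7, 8
-/

namespace Vale.Agent.P030.H200

open Vale.Agent.P030.T Vale.Agent.P030.H782 Vale.Agent.P030.H605 Module

/-! ### structure of `Λ` in dimension at least 6 -/

theorem finrank_le_coords {n : ℕ} (Λ : Submodule ℚ V8) (i : Fin n → Fin 8)
    (h : ∀ v ∈ Λ, (∀ k, v (i k) = 0) → v = 0) : finrank ℚ Λ ≤ n := by
  let f : Λ →ₗ[ℚ] (Fin n → ℚ) :=
    { toFun := fun v k => (v : V8) (i k)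
      map_add' := fun _ _ => rfl
      map_smul' := fun _ _ => rfl }
  have hf : Function.Injective f := by
    rw [← LinearMap.ker_eq_bot, LinearMap.ker_eq_bot']
    intro v hv
    apply Subtype.ext
    exact h v v.2 fun k => congrFun hv k
  simpa using LinearMap.finrank_le_finrank_of_injective hf

/-- coefficients of a functional -/
def cf (φ : V8 →ₗ[ℚ] ℚ) (j : Fin 8) : ℚ := φ (Pi.single j 1)

theorem apply_cf (φ : V8 →ₗ[ℚ] ℚ) (v : V8) :
    φ v = cf φ 0 * v 0 + cf φ 1 * v 1 + cf φ 2 * v 2 + cf φ 3 * v 3 + cf φ 4 * v 4 + cf φ 5 * v 5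
      + cf φ 6 * v 6 + cf φ 7 * v 7 := by
  have h : v = ∑ j, v j • (Pi.single j 1 : V8) := by
    ext k
    simp [Finset.sum_apply, Pi.single_apply]
  conv_lhs => rw [h]
  rw [map_sum, Fin.sum_univ_eight]
  simp only [map_smul, smul_eq_mul, cf]
  ring

theorem vz (v : V8) (h0 : v 0 = 0) (h1 : v 1 = 0) (h2 : v 2 = 0) (h3 : v 3 = 0) (h4 : v 4 = 0)
    (h5 : v 5 = 0) (h6 : v 6 = 0) (h7 : v 7 = 0) : v = 0 := by
  ext j
  fin_cases j <;> assumption

/-- alternatives in dimension at least 6 -/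
theorem alt {Λ : Submodule ℚ V8} (hS : Sta Λ) (hr : 6 ≤ finrank ℚ Λ) :
    (finrank ℚ Λ = 6 ∧ ∀ v : V8, v 6 = 0 → v 7 = 0 → v ∈ Λ) ∨
    ((Pi.single 0 1 : V8) ∈ Λ ∧ (Pi.single 1 1 : V8) ∈ Λ ∧ (Pi.single 2 1 : V8) ∈ Λ ∧
      (Pi.single 6 1 : V8) ∈ Λ ∧ (Pi.single 7 1 : V8) ∈ Λ ∧
      ∀ φ : V8 →ₗ[ℚ] ℚ, (∀ v ∈ Λ, φ v = 0) →
        cf φ 0 = 0 ∧ cf φ 1 = 0 ∧ cf φ 2 = 0 ∧ cf φ 6 = 0 ∧ cf φ 7 = 0) := by
  by_cases hft : ∃ v ∈ Λ, v 6 ≠ 0 ∨ v 7 ≠ 0
  · right
    obtain ⟨v, hv, hv'⟩ := hft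
    obtain ⟨h6, h7, h0⟩ := hS.ft v hv hv'
    have key : ∀ φ : V8 →ₗ[ℚ] ℚ, (∀ v ∈ Λ, φ v = 0) →
        cf φ 0 = 0 ∧ cf φ 1 = 0 ∧ cf φ 2 = 0 ∧ cf φ 6 = 0 ∧ cf φ 7 = 0 := by
      intro φ hφ
      have k0 : cf φ 0 = 0 := hφ _ h0
      have k6 : cf φ 6 = 0 := hφ _ h6
      have k7 : cf φ 7 = 0 := hφ _ h7
      have r0 : ∀ v ∈ Λ, cf φ 2 * v 3 = 0 := by
        intro v hv
        have := hφ _ (hS.r0 v hv)
        rw [apply_cf] at this
        simpa using this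
      have rm : ∀ v ∈ Λ, (cf φ 1 + cf φ 2) * v 4 = 0 := by
        intro v hv
        have := hφ _ (hS.rm v hv)
        rw [apply_cf] at this
        simp at this
        linarith
      have r1 : ∀ v ∈ Λ, cf φ 1 * ((v 4 + v 5) / 2) + cf φ 2 * v 5 = 0 := by
        intro v hv
        have := hφ _ (hS.r1 v hv)
        rw [apply_cf] at this
        simp [k0] at this
        linarith
      have k2 : cf φ 2 = 0 := by
        by_contra hne
        have hz3 : ∀ v ∈ Λ, v 3 = 0 := fun v hv => by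
          simpa [hne] using r0 v hv
        have : finrank ℚ Λ ≤ 5 := by
          apply finrank_le_coords Λ ![0, 1, 5, 6, 7]
          intro v hv hk
          have e0 : v 0 = 0 := hk 0
          have e1 : v 1 = 0 := hk 1
          have e5 : v 5 = 0 := hk 2
          have e6 : v 6 = 0 := hk 3
          have e7 : v 7 = 0 := hk 4
          have e3 := hz3 v hv
          have e4 : v 4 = 0 := by
            by_cases h12 : cf φ 1 + cf φ 2 = 0
            · have h1 : cf φ 1 ≠ 0 := by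
                intro h
                rw [h, zero_add] at h12
                exact hne h12
              have := r1 v hv
              rw [e5] at this
              simp at this
              rcases this with h | h
              · exact absurd h h1
              · exact h
            · simpa [h12] using rm v hv
          have e2 : v 2 = 0 := by
            have := hφ v hv
            rw [apply_cf, e0, e1, e3, e4, e5, e6, e7] at this
            simpa [hne] using this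
          exact vz v e0 e1 e2 e3 e4 e5 e6 e7
        omega
      have k1 : cf φ 1 = 0 := by
        by_contra hne
        have hz4 : ∀ v ∈ Λ, v 4 = 0 := fun v hv => by
          simpa [hne, k2] using rm v hv
        have hz5 : ∀ v ∈ Λ, v 5 = 0 := fun v hv => by
          simpa [hne, k2, hz4 v hv] using r1 v hv
        have : finrank ℚ Λ ≤ 5 := by
          apply finrank_le_coords Λ ![0, 2, 3, 6, 7]
          intro v hv hk
          have e0 : v 0 = 0 := hk 0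
          have e2 : v 2 = 0 := hk 1
          have e3 : v 3 = 0 := hk 2
          have e6 : v 6 = 0 := hk 3
          have e7 : v 7 = 0 := hk 4
          have e4 := hz4 v hv
          have e5 := hz5 v hv
          have e1 : v 1 = 0 := by
            have := hφ v hv
            rw [apply_cf, e0, e2, e3, e4, e5, e6, e7] at this
            simpa [hne] using this
          exact vz v e0 e1 e2 e3 e4 e5 e6 e7
        omega
      exact ⟨k0, k1, k2, k6, k7⟩
    refine ⟨h0, ?_, ?_, h6, h7, key⟩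
    · rw [← Subspace.forall_mem_dualAnnihilator_apply_eq_zero_iff]
      intro φ hφ
      exact (key φ ((Submodule.mem_dualAnnihilator φ).1 hφ)).2.1
    · rw [← Subspace.forall_mem_dualAnnihilator_apply_eq_zero_iff]
      intro φ hφ
      exact (key φ ((Submodule.mem_dualAnnihilator φ).1 hφ)).2.2.1
  · left
    push Not at hft
    let U : Submodule ℚ V8 :=
      { carrier := {v | v 6 = 0 ∧ v 7 = 0}
        add_mem' := by
          rintro a b ⟨h1, h2⟩ ⟨h3, h4⟩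
          exact ⟨by simp [h1, h3], by simp [h2, h4]⟩
        zero_mem' := ⟨rfl, rfl⟩
        smul_mem' := by
          rintro c a ⟨h1, h2⟩
          exact ⟨by simp [h1], by simp [h2]⟩ }
    have hU : finrank ℚ U ≤ 6 := by
      apply finrank_le_coords U ![0, 1, 2, 3, 4, 5]
      intro v hv hk
      exact vz v (hk 0) (hk 1) (hk 2) (hk 3) (hk 4) (hk 5) hv.1 hv.2
    have hle : Λ ≤ U := fun v hv => hft v hv
    have hle' := Submodule.finrank_mono hle
    have heq : Λ = U := Submodule.eq_of_le_of_finrank_eq hle (by omega)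
    refine ⟨by omega, fun v h6 h7 => ?_⟩
    rw [heq]
    exact ⟨h6, h7⟩

/-! ### gluing the cusps -/

/-- the four explicit independence statements, separately -/
def I0 (x : ℚ) (Λ : Submodule ℚ V8) (J : Finset Gp) : Prop :=
  ∀ p q r s : ℚ, (Gp.z1 ∉ J → p = 0) → (Gp.zl ∉ J → q = 0) → (Gp.z8 ∉ J → r = 0) →
    (Gp.zab ∉ J → s = 0) →
    (∀ v ∈ Λ, p * (v 0 - x * v 6) + q * v 1 + r * v 6 + s * v 3 = 0) →
    p = 0 ∧ q = 0 ∧ r = 0 ∧ s = 0

def I1 (Λ : Submodule ℚ V8) (J : Finset Gp) : Prop :=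
  ∀ p q r s t u : ℚ, (Gp.w1 ∉ J → p = 0) → (Gp.wl ∉ J → q = 0) → (Gp.wy ∉ J → r = 0) →
    (Gp.w8 ∉ J → s = 0) → (Gp.wab ∉ J → t = 0) → (Gp.wf7 ∉ J → u = 0) →
    (∀ v ∈ Λ, p * (v 0 - 1 / 8 * v 7) + q * (v 1 - v 2)
      + r * (-4 / 3 * v 3 - 4 / 3 * v 4 - v 6 + 1 / 2 * v 7) + s * (v 6 - 1 / 2 * v 7)
      + t * v 3 + u * v 5 = 0) →
    p = 0 ∧ q = 0 ∧ r = 0 ∧ s = 0 ∧ t = 0 ∧ u = 0

def I2 (Λ : Submodule ℚ V8) (J : Finset Gp) : Prop :=
  ∀ p q r s : ℚ, (Gp.v2 ∉ J → p = 0) → (Gp.vl ∉ J → q = 0) → (Gp.v8 ∉ J → r = 0) →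
    (Gp.vb ∉ J → s = 0) →
    (∀ v ∈ Λ, p * (-v 3 - v 4 + v 5) + q * (-v 4 + v 5) + r * (-v 6 + v 7) + s * v 2 = 0) →
    p = 0 ∧ q = 0 ∧ r = 0 ∧ s = 0

def I3 (Λ : Submodule ℚ V8) (J : Finset Gp) : Prop :=
  ∀ p q r : ℚ, (Gp.x2 ∉ J → p = 0) → (Gp.xl ∉ J → q = 0) → (Gp.x1 ∉ J → r = 0) →
    (∀ v ∈ Λ, p * (1 / 2 * v 5) + q * (-v 4 + v 5) + r * (-v 2 + 1 / 8 * v 7) = 0) →
    p = 0 ∧ q = 0 ∧ r = 0

theorem mem_un {J0 J1 J2 J3 : Finset Gp} (h0 : ∀ g ∈ J0, g.cusp = 0) (h1 : ∀ g ∈ J1, g.cusp = 1)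
    (h2 : ∀ g ∈ J2, g.cusp = 2) (h3 : ∀ g ∈ J3, g.cusp = 3) (g : Gp) :
    (g.cusp = 0 → (g ∉ J0 → g ∉ J0 ∪ J1 ∪ J2 ∪ J3)) ∧
    (g.cusp = 1 → (g ∉ J1 → g ∉ J0 ∪ J1 ∪ J2 ∪ J3)) ∧
    (g.cusp = 2 → (g ∉ J2 → g ∉ J0 ∪ J1 ∪ J2 ∪ J3)) ∧
    (g.cusp = 3 → (g ∉ J3 → g ∉ J0 ∪ J1 ∪ J2 ∪ J3)) := by
  have n01 : (0 : Fin 4) ≠ 1 := by decide
  have n02 : (0 : Fin 4) ≠ 2 := by decide
  have n03 : (0 : Fin 4) ≠ 3 := by decide
  have n12 : (1 : Fin 4) ≠ 2 := by decide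
  have n13 : (1 : Fin 4) ≠ 3 := by decide
  have n23 : (2 : Fin 4) ≠ 3 := by decide
  simp only [Finset.mem_union, not_or]
  refine ⟨fun hc hg => ⟨⟨⟨hg, fun h => ?_⟩, fun h => ?_⟩, fun h => ?_⟩,
    fun hc hg => ⟨⟨⟨fun h => ?_, hg⟩, fun h => ?_⟩, fun h => ?_⟩,
    fun hc hg => ⟨⟨⟨fun h => ?_, fun h => ?_⟩, hg⟩, fun h => ?_⟩,
    fun hc hg => ⟨⟨⟨fun h => ?_, fun h => ?_⟩, fun h => ?_⟩, hg⟩⟩
  · exact n01 (hc.symm.trans (h1 g h))
  · exact n02 (hc.symm.trans (h2 g h))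
  · exact n03 (hc.symm.trans (h3 g h))
  · exact n01 ((h0 g h).symm.trans hc)
  · exact n12 (hc.symm.trans (h2 g h))
  · exact n13 (hc.symm.trans (h3 g h))
  · exact n02 ((h0 g h).symm.trans hc)
  · exact n12 ((h1 g h).symm.trans hc)
  · exact n23 (hc.symm.trans (h3 g h))
  · exact n03 ((h0 g h).symm.trans hc)
  · exact n13 ((h1 g h).symm.trans hc)
  · exact n23 ((h2 g h).symm.trans hc)

theorem glue {x : ℚ} {Λ : Submodule ℚ V8} {J0 J1 J2 J3 : Finset Gp}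
    (h0 : ∀ g ∈ J0, g.cusp = 0) (h1 : ∀ g ∈ J1, g.cusp = 1)
    (h2 : ∀ g ∈ J2, g.cusp = 2) (h3 : ∀ g ∈ J3, g.cusp = 3)
    (i0 : I0 x Λ J0) (i1 : I1 Λ J1) (i2 : I2 Λ J2) (i3 : I3 Λ J3) (f : Gp → ℕ) :
    ∃ J : Finset Gp, Ind x Λ J ∧
      ∑ g ∈ J, f g = ∑ g ∈ J0, f g + ∑ g ∈ J1, f g + ∑ g ∈ J2, f g + ∑ g ∈ J3, f g ∧
      J.card = J0.card + J1.card + J2.card + J3.card := by
  have hm := mem_un h0 h1 h2 h3
  have n01 : (0 : Fin 4) ≠ 1 := by decide
  have n02 : (0 : Fin 4) ≠ 2 := by decide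
  have n03 : (0 : Fin 4) ≠ 3 := by decide
  have n12 : (1 : Fin 4) ≠ 2 := by decide
  have n13 : (1 : Fin 4) ≠ 3 := by decide
  have n23 : (2 : Fin 4) ≠ 3 := by decide
  have d1 : Disjoint J0 J1 := Finset.disjoint_left.2 fun g ha hb =>
    n01 ((h0 g ha).symm.trans (h1 g hb))
  have d2 : Disjoint (J0 ∪ J1) J2 := Finset.disjoint_left.2 fun g ha hb => by
    rcases Finset.mem_union.1 ha with h | h
    · exact n02 ((h0 g h).symm.trans (h2 g hb))
    · exact n12 ((h1 g h).symm.trans (h2 g hb))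
  have d3 : Disjoint (J0 ∪ J1 ∪ J2) J3 := Finset.disjoint_left.2 fun g ha hb => by
    rcases Finset.mem_union.1 ha with h | h
    · rcases Finset.mem_union.1 h with h | h
      · exact n03 ((h0 g h).symm.trans (h3 g hb))
      · exact n13 ((h1 g h).symm.trans (h3 g hb))
    · exact n23 ((h2 g h).symm.trans (h3 g hb))
  refine ⟨J0 ∪ J1 ∪ J2 ∪ J3, ⟨?_, ?_, ?_, ?_⟩, ?_, ?_⟩
  · intro p q r s hp hq hr hs
    exact i0 p q r s (fun h => hp ((hm _).1 rfl h)) (fun h => hq ((hm _).1 rfl h))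
      (fun h => hr ((hm _).1 rfl h)) (fun h => hs ((hm _).1 rfl h))
  · intro p q r s t u hp hq hr hs ht hu
    exact i1 p q r s t u (fun h => hp ((hm _).2.1 rfl h)) (fun h => hq ((hm _).2.1 rfl h))
      (fun h => hr ((hm _).2.1 rfl h)) (fun h => hs ((hm _).2.1 rfl h))
      (fun h => ht ((hm _).2.1 rfl h)) (fun h => hu ((hm _).2.1 rfl h))
  · intro p q r s hp hq hr hs
    exact i2 p q r s (fun h => hp ((hm _).2.2.1 rfl h)) (fun h => hq ((hm _).2.2.1 rfl h))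
      (fun h => hr ((hm _).2.2.1 rfl h)) (fun h => hs ((hm _).2.2.1 rfl h))
  · intro p q r hp hq hr
    exact i3 p q r (fun h => hp ((hm _).2.2.2 rfl h)) (fun h => hq ((hm _).2.2.2 rfl h))
      (fun h => hr ((hm _).2.2.2 rfl h))
  · rw [Finset.sum_union d3, Finset.sum_union d2, Finset.sum_union d1]
  · rw [Finset.card_union_of_disjoint d3, Finset.card_union_of_disjoint d2,
      Finset.card_union_of_disjoint d1]

/-! ### the cases -/

section cases

variable {x : ℚ} {Λ : Submodule ℚ V8}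

theorem i0_a (e0 : (Pi.single 0 1 : V8) ∈ Λ) (e1 : (Pi.single 1 1 : V8) ∈ Λ)
    (e6 : (Pi.single 6 1 : V8) ∈ Λ) : I0 x Λ {.z1, .zl, .z8} := by
  intro p q r s _ _ _ hs H
  have ks : s = 0 := hs (by decide)
  have k0 := H _ e0
  have k1 := H _ e1
  have k6 := H _ e6
  simp at k0 k1 k6
  refine ⟨k0, k1, ?_, ks⟩
  rw [k0] at k6
  linarith

theorem i0_full (e0 : (Pi.single 0 1 : V8) ∈ Λ) (e1 : (Pi.single 1 1 : V8) ∈ Λ)
    (e6 : (Pi.single 6 1 : V8) ∈ Λ) (a b c : ℚ) (ha : a ≠ 0)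
    (hw : (![0, 0, 0, a, b, c, 0, 0] : V8) ∈ Λ) : I0 x Λ {.z1, .zl, .z8, .zab} := by
  intro p q r s _ _ _ _ H
  have k0 := H _ e0
  have k1 := H _ e1
  have k6 := H _ e6
  have k3 := H _ hw
  simp at k0 k1 k6 k3
  refine ⟨k0, k1, ?_, ?_⟩
  · rw [k0] at k6
    linarith
  · rcases k3 with h | h
    · exact h
    · exact absurd h ha

theorem i1_m (e0 : (Pi.single 0 1 : V8) ∈ Λ) (e1 : (Pi.single 1 1 : V8) ∈ Λ)
    (e6 : (Pi.single 6 1 : V8) ∈ Λ) : I1 Λ {.w1, .wl, .wy} := by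
  intro p q r s t u _ _ _ hs ht hu H
  have ks : s = 0 := hs (by decide)
  have kt : t = 0 := ht (by decide)
  have ku : u = 0 := hu (by decide)
  have k0 := H _ e0
  have k1 := H _ e1
  have k6 := H _ e6
  simp at k0 k1 k6
  refine ⟨k0, k1, ?_, ks, kt, ku⟩
  linarith

theorem i2_m (e2 : (Pi.single 2 1 : V8) ∈ Λ) (e6 : (Pi.single 6 1 : V8) ∈ Λ) :
    I2 Λ {.v8, .vb} := by
  intro p q r s hp hq _ _ H
  have kp : p = 0 := hp (by decide)
  have kq : q = 0 := hq (by decide)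
  have k2 := H _ e2
  have k6 := H _ e6
  simp at k2 k6
  refine ⟨kp, kq, ?_, k2⟩
  linarith

theorem i3_m (e2 : (Pi.single 2 1 : V8) ∈ Λ) : I3 Λ {.x1} := by
  intro p q r hp hq _ H
  have kp : p = 0 := hp (by decide)
  have kq : q = 0 := hq (by decide)
  have k2 := H _ e2
  simp at k2
  exact ⟨kp, kq, k2⟩

variable {α β γ : ℚ}

/-- at `c1` in dimension 7 -/
theorem i1_7 (e0 : (Pi.single 0 1 : V8) ∈ Λ) (e1 : (Pi.single 1 1 : V8) ∈ Λ)
    (e6 : (Pi.single 6 1 : V8) ∈ Λ)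
    (a1 : (![0, 0, 0, β, -α, 0, 0, 0] : V8) ∈ Λ) (a2 : (![0, 0, 0, γ, 0, -α, 0, 0] : V8) ∈ Λ)
    (a3 : (![0, 0, 0, 0, γ, -β, 0, 0] : V8) ∈ Λ) (hn : α ≠ 0 ∨ β ≠ 0 ∨ γ ≠ 0)
    {f : Gp → ℕ} {n b : ℕ} (h1 : n ≤ f .w1) (hl : n ≤ f .wl) (hy : n ≤ f .wy) (h8 : b ≤ f .w8)
    (hab : b ≤ f .wab) (h7 : b ≤ f .wf7) :
    ∃ J1 : Finset Gp, (∀ g ∈ J1, g.cusp = 1) ∧ I1 Λ J1 ∧ 3 * n + 2 * b ≤ ∑ g ∈ J1, f g ∧
      J1.card = 5 := by
  by_cases hg : γ = 0
  · by_cases hab' : α = β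
    · have hb : β ≠ 0 := by
        rintro hb
        rw [hab', hb, hg] at hn
        simp at hn
      refine ⟨{.w1, .wl, .wy, .wab, .wf7}, by decide, ?_, ?_, rfl⟩
      · intro p q r s t u _ _ _ hs _ _ H
        have ks : s = 0 := hs (by decide)
        have k0 := H _ e0
        have k1 := H _ e1
        have k6 := H _ e6
        have l1 := H _ a1
        have l3 := H _ a3
        simp at k0 k1 k6 l1 l3
        have kr : r = 0 := by linarith
        refine ⟨k0, k1, kr, ks, ?_, ?_⟩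
        · rw [kr] at l1
          simp at l1
          exact l1.resolve_right hb
        · rw [kr] at l3
          simp at l3
          exact l3.resolve_right hb
      · rw [Finset.sum_insert (by decide), Finset.sum_insert (by decide),
          Finset.sum_insert (by decide), Finset.sum_insert (by decide), Finset.sum_singleton]
        omega
    · have hab0 : α - β ≠ 0 := sub_ne_zero.2 hab'
      refine ⟨{.w1, .wl, .wy, .w8, .wf7}, by decide, ?_, ?_, rfl⟩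
      · intro p q r s t u _ _ _ _ ht _ H
        have kt : t = 0 := ht (by decide)
        have k0 := H _ e0
        have k1 := H _ e1
        have k6 := H _ e6
        have l1 := H _ a1
        have l2 := H _ a2
        have l3 := H _ a3
        simp only [Pi.single_apply, Matrix.cons_val] at k0 k1 k6 l1 l2 l3
        simp at k0 k1 k6
        have kr : r = 0 := by
          have : r * (α - β) = 0 := by
            rw [kt] at l1
            linarith
          exact (mul_eq_zero.1 this).resolve_right hab0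
        refine ⟨k0, k1, kr, ?_, kt, ?_⟩
        · rw [kr] at k6
          linarith
        · rw [kr, kt] at l2
          rw [kr, kt] at l3
          have m1 : u * α = 0 := by linarith
          have m2 : u * β = 0 := by linarith
          have m3 : u * (α - β) = 0 := by rw [mul_sub, m1, m2, sub_zero]
          exact (mul_eq_zero.1 m3).resolve_right hab0
      · rw [Finset.sum_insert (by decide), Finset.sum_insert (by decide),
          Finset.sum_insert (by decide), Finset.sum_insert (by decide), Finset.sum_singleton]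
        omega
  · refine ⟨{.w1, .wl, .wy, .w8, .wab}, by decide, ?_, ?_, rfl⟩
    · intro p q r s t u _ _ _ _ _ hu H
      have ku : u = 0 := hu (by decide)
      have k0 := H _ e0
      have k1 := H _ e1
      have k6 := H _ e6
      have l2 := H _ a2
      have l3 := H _ a3
      simp only [Pi.single_apply, Matrix.cons_val] at k0 k1 k6 l2 l3
      simp at k0 k1 k6
      have kr : r = 0 := by
        have : r * γ = 0 := by
          rw [ku] at l3
          linarith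
        exact (mul_eq_zero.1 this).resolve_right hg
      refine ⟨k0, k1, kr, ?_, ?_, ku⟩
      · rw [kr] at k6
        linarith
      · rw [kr, ku] at l2
        have m1 : t * γ = 0 := by linarith
        exact (mul_eq_zero.1 m1).resolve_right hg
    · rw [Finset.sum_insert (by decide), Finset.sum_insert (by decide),
        Finset.sum_insert (by decide), Finset.sum_insert (by decide), Finset.sum_singleton]
      omega

theorem i2_7a (e2 : (Pi.single 2 1 : V8) ∈ Λ) (e6 : (Pi.single 6 1 : V8) ∈ Λ)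
    (a1 : (![0, 0, 0, β, -α, 0, 0, 0] : V8) ∈ Λ) (a2 : (![0, 0, 0, γ, 0, -α, 0, 0] : V8) ∈ Λ)
    (hn : α - β ≠ 0 ∨ α + γ ≠ 0) : I2 Λ {.v2, .v8, .vb} := by
  intro p q r s _ hq _ _ H
  have kq : q = 0 := hq (by decide)
  have k2 := H _ e2
  have k6 := H _ e6
  have l1 := H _ a1
  have l2 := H _ a2
  simp only [Pi.single_apply, Matrix.cons_val] at k2 k6 l1 l2
  simp at k2 k6
  rw [kq] at l1 l2
  have m1 : p * (α - β) = 0 := by linarith
  have m2 : p * (α + γ) = 0 := by linarith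
  refine ⟨?_, kq, by linarith, k2⟩
  rcases hn with h | h
  · exact (mul_eq_zero.1 m1).resolve_right h
  · exact (mul_eq_zero.1 m2).resolve_right h

theorem i2_7b (e2 : (Pi.single 2 1 : V8) ∈ Λ) (e6 : (Pi.single 6 1 : V8) ∈ Λ)
    (a1 : (![0, 0, 0, β, -α, 0, 0, 0] : V8) ∈ Λ) (hn : α ≠ 0) : I2 Λ {.vl, .v8, .vb} := by
  intro p q r s hp _ _ _ H
  have kp : p = 0 := hp (by decide)
  have k2 := H _ e2
  have k6 := H _ e6
  have l1 := H _ a1
  simp only [Pi.single_apply, Matrix.cons_val] at k2 k6 l1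
  simp at k2 k6
  rw [kp] at l1
  have m1 : q * α = 0 := by linarith
  exact ⟨kp, (mul_eq_zero.1 m1).resolve_right hn, by linarith, k2⟩

theorem i3_7a (e2 : (Pi.single 2 1 : V8) ∈ Λ)
    (a2 : (![0, 0, 0, γ, 0, -α, 0, 0] : V8) ∈ Λ) (a3 : (![0, 0, 0, 0, γ, -β, 0, 0] : V8) ∈ Λ)
    (hn : α ≠ 0 ∨ β ≠ 0) : I3 Λ {.x2, .x1} := by
  intro p q r _ hq _ H
  have kq : q = 0 := hq (by decide)
  have k2 := H _ e2
  have l2 := H _ a2
  have l3 := H _ a3
  simp only [Pi.single_apply, Matrix.cons_val] at k2 l2 l3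
  simp at k2
  rw [kq] at l2 l3
  have m2 : p * α = 0 := by linarith
  have m3 : p * β = 0 := by linarith
  refine ⟨?_, kq, k2⟩
  rcases hn with h | h
  · exact (mul_eq_zero.1 m2).resolve_right h
  · exact (mul_eq_zero.1 m3).resolve_right h

theorem i3_7b (e2 : (Pi.single 2 1 : V8) ∈ Λ)
    (a3 : (![0, 0, 0, 0, γ, -β, 0, 0] : V8) ∈ Λ) (hn : γ + β ≠ 0) : I3 Λ {.xl, .x1} := by
  intro p q r hp _ _ H
  have kp : p = 0 := hp (by decide)
  have k2 := H _ e2
  have l3 := H _ a3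
  simp only [Pi.single_apply, Matrix.cons_val] at k2 l3
  simp at k2
  rw [kp] at l3
  have m3 : q * (γ + β) = 0 := by linarith
  exact ⟨kp, (mul_eq_zero.1 m3).resolve_right hn, k2⟩

theorem i3_7c (e2 : (Pi.single 2 1 : V8) ∈ Λ)
    (a1 : (![0, 0, 0, β, -α, 0, 0, 0] : V8) ∈ Λ) (a2 : (![0, 0, 0, γ, 0, -α, 0, 0] : V8) ∈ Λ)
    (hn : α ≠ 0) : I3 Λ {.x2, .xl, .x1} := by
  intro p q r _ _ _ H
  have k2 := H _ e2
  have l1 := H _ a1
  have l2 := H _ a2
  simp only [Pi.single_apply, Matrix.cons_val] at k2 l1 l2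
  simp at k2
  have m1 : q * α = 0 := by linarith
  have kq := (mul_eq_zero.1 m1).resolve_right hn
  rw [kq] at l2
  have m2 : p * α = 0 := by linarith
  exact ⟨(mul_eq_zero.1 m2).resolve_right hn, kq, k2⟩

end cases

/-! ### heights of the sets used -/

section sums

variable (f : Gp → ℕ)

theorem s0a : ∑ g ∈ ({.z1, .zl, .z8} : Finset Gp), f g = f .z1 + (f .zl + f .z8) := by
  rw [Finset.sum_insert (by decide), Finset.sum_insert (by decide), Finset.sum_singleton]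

theorem s0b : ∑ g ∈ ({.z1, .zl, .zab} : Finset Gp), f g = f .z1 + (f .zl + f .zab) := by
  rw [Finset.sum_insert (by decide), Finset.sum_insert (by decide), Finset.sum_singleton]

theorem s0f : ∑ g ∈ ({.z1, .zl, .z8, .zab} : Finset Gp), f g
    = f .z1 + (f .zl + (f .z8 + f .zab)) := by
  rw [Finset.sum_insert (by decide), Finset.sum_insert (by decide), Finset.sum_insert (by decide),
    Finset.sum_singleton]

theorem s1m : ∑ g ∈ ({.w1, .wl, .wy} : Finset Gp), f g = f .w1 + (f .wl + f .wy) := by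
  rw [Finset.sum_insert (by decide), Finset.sum_insert (by decide), Finset.sum_singleton]

theorem s1b : ∑ g ∈ ({.w1, .wl, .wy, .wab, .wf7} : Finset Gp), f g
    = f .w1 + (f .wl + (f .wy + (f .wab + f .wf7))) := by
  rw [Finset.sum_insert (by decide), Finset.sum_insert (by decide), Finset.sum_insert (by decide),
    Finset.sum_insert (by decide), Finset.sum_singleton]

theorem s1f : ∑ g ∈ ({.w1, .wl, .wy, .w8, .wab, .wf7} : Finset Gp), f g
    = f .w1 + (f .wl + (f .wy + (f .w8 + (f .wab + f .wf7)))) := by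
  rw [Finset.sum_insert (by decide), Finset.sum_insert (by decide), Finset.sum_insert (by decide),
    Finset.sum_insert (by decide), Finset.sum_insert (by decide), Finset.sum_singleton]

theorem s2m : ∑ g ∈ ({.v8, .vb} : Finset Gp), f g = f .v8 + f .vb := by
  rw [Finset.sum_insert (by decide), Finset.sum_singleton]

theorem s2a : ∑ g ∈ ({.v2, .v8, .vb} : Finset Gp), f g = f .v2 + (f .v8 + f .vb) := by
  rw [Finset.sum_insert (by decide), Finset.sum_insert (by decide), Finset.sum_singleton]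

theorem s2b : ∑ g ∈ ({.vl, .v8, .vb} : Finset Gp), f g = f .vl + (f .v8 + f .vb) := by
  rw [Finset.sum_insert (by decide), Finset.sum_insert (by decide), Finset.sum_singleton]

theorem s2c : ∑ g ∈ ({.v2, .vl, .vb} : Finset Gp), f g = f .v2 + (f .vl + f .vb) := by
  rw [Finset.sum_insert (by decide), Finset.sum_insert (by decide), Finset.sum_singleton]

theorem s2f : ∑ g ∈ ({.v2, .vl, .v8, .vb} : Finset Gp), f g
    = f .v2 + (f .vl + (f .v8 + f .vb)) := by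
  rw [Finset.sum_insert (by decide), Finset.sum_insert (by decide), Finset.sum_insert (by decide),
    Finset.sum_singleton]

theorem s3a : ∑ g ∈ ({.x2, .x1} : Finset Gp), f g = f .x2 + f .x1 := by
  rw [Finset.sum_insert (by decide), Finset.sum_singleton]

theorem s3b : ∑ g ∈ ({.xl, .x1} : Finset Gp), f g = f .xl + f .x1 := by
  rw [Finset.sum_insert (by decide), Finset.sum_singleton]

theorem s3f : ∑ g ∈ ({.x2, .xl, .x1} : Finset Gp), f g = f .x2 + (f .xl + f .x1) := by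
  rw [Finset.sum_insert (by decide), Finset.sum_insert (by decide), Finset.sum_singleton]

end sums

/-- `F`, `T` absent: dimension 6 -/
theorem table_6i {Pr : Par} {n a b v2 v1 x2 x1 : ℕ} (h : Hts Pr n a b v2 v1 x2 x1) (x : ℚ)
    (Λ : Submodule ℚ V8) (h6 : finrank ℚ Λ = 6) (hU : ∀ v : V8, v 6 = 0 → v 7 = 0 → v ∈ Λ) :
    ∃ J : Finset Gp, Ind x Λ J ∧ finrank ℚ Λ * Pr.D0 ≤ ∑ g ∈ J, Pr.ht g ∧
      finrank ℚ Λ ≤ J.card := by
  have e0 : (Pi.single 0 1 : V8) ∈ Λ := hU _ rfl rfl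
  have e1 : (Pi.single 1 1 : V8) ∈ Λ := hU _ rfl rfl
  have e2 : (Pi.single 2 1 : V8) ∈ Λ := hU _ rfl rfl
  have e3 : (Pi.single 3 1 : V8) ∈ Λ := hU _ rfl rfl
  have e4 : (Pi.single 4 1 : V8) ∈ Λ := hU _ rfl rfl
  have e5 : (Pi.single 5 1 : V8) ∈ Λ := hU _ rfl rfl
  obtain ⟨J, hJ, hs, hc⟩ := glue (x := x) (Λ := Λ) (J0 := {.z1, .zl, .zab})
    (J1 := {.w1, .wl, .wy, .wab, .wf7}) (J2 := {.v2, .vl, .vb}) (J3 := {.x2, .xl, .x1})
    (by decide) (by decide) (by decide) (by decide)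
    (by
      intro p q r s _ _ hr' _ H
      have kr : r = 0 := hr' (by decide)
      have k0 := H _ e0
      have k1 := H _ e1
      have k3 := H _ e3
      simp at k0 k1 k3
      exact ⟨k0, k1, kr, k3⟩)
    (by
      intro p q r s t u _ _ _ hs _ _ H
      have ks : s = 0 := hs (by decide)
      have k0 := H _ e0
      have k1 := H _ e1
      have k3 := H _ e3
      have k4 := H _ e4
      have k5 := H _ e5
      simp at k0 k1 k3 k4 k5
      refine ⟨k0, k1, k4, ks, ?_, k5⟩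
      rw [k4] at k3
      linarith)
    (by
      intro p q r s _ _ hr' _ H
      have kr : r = 0 := hr' (by decide)
      have k2 := H _ e2
      have k3 := H _ e3
      have k4 := H _ e4
      simp at k2 k3 k4
      refine ⟨k3, ?_, kr, k2⟩
      rw [k3] at k4
      linarith)
    (by
      intro p q r _ _ _ H
      have k2 := H _ e2
      have k4 := H _ e4
      have k5 := H _ e5
      simp at k2 k4 k5
      refine ⟨?_, k4, k2⟩
      rw [k4] at k5
      linarith) Pr.ht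
  refine ⟨J, hJ, ?_, ?_⟩
  · rw [hs, h6, s0b, s1b, s2c, s3f]
    have := h.i6b
    have := h.hz1
    have := h.hzl
    have := h.hw1
    have := h.hwl
    have := h.hwy
    have := h.hzab
    have := h.hwab
    have := h.hwf7
    have := h.hv2
    have := h.hvl
    have := h.hvb
    have := h.hx2
    have := h.hxl
    have := h.hx1
    omega
  · rw [hc, h6]
    decide

/-- dimension 6 with `F`, `T` -/
theorem table_6ii {Pr : Par} {n a b v2 v1 x2 x1 : ℕ} (h : Hts Pr n a b v2 v1 x2 x1) (x : ℚ)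
    (Λ : Submodule ℚ V8) (h6 : finrank ℚ Λ = 6) (e0 : (Pi.single 0 1 : V8) ∈ Λ)
    (e1 : (Pi.single 1 1 : V8) ∈ Λ) (e2 : (Pi.single 2 1 : V8) ∈ Λ)
    (e6 : (Pi.single 6 1 : V8) ∈ Λ) :
    ∃ J : Finset Gp, Ind x Λ J ∧ finrank ℚ Λ * Pr.D0 ≤ ∑ g ∈ J, Pr.ht g ∧
      finrank ℚ Λ ≤ J.card := by
  obtain ⟨J, hJ, hs, hc⟩ := glue (x := x) (Λ := Λ) (J0 := {.z1, .zl, .z8})
    (J1 := {.w1, .wl, .wy}) (J2 := {.v8, .vb}) (J3 := {.x1}) (by decide)
    (by decide) (by decide) (by decide) (i0_a e0 e1 e6) (i1_m e0 e1 e6) (i2_m e2 e6)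
    (i3_m e2) Pr.ht
  refine ⟨J, hJ, ?_, ?_⟩
  · rw [hs, h6, s0a, s1m, s2m, Finset.sum_singleton]
    have := h.i6a
    have := h.hz1
    have := h.hzl
    have := h.hw1
    have := h.hwl
    have := h.hwy
    have := h.hz8
    have := h.hv8
    have := h.hvb
    have := h.hx1
    omega
  · rw [hc, h6]
    decide

/-- dimension 8 -/
theorem table_8 {Pr : Par} {n a b v2 v1 x2 x1 : ℕ} (h : Hts Pr n a b v2 v1 x2 x1) (x : ℚ)
    (Λ : Submodule ℚ V8) (h8 : finrank ℚ Λ = 8) :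
    ∃ J : Finset Gp, Ind x Λ J ∧ finrank ℚ Λ * Pr.D0 ≤ ∑ g ∈ J, Pr.ht g ∧
      finrank ℚ Λ ≤ J.card := by
  have htop : Λ = ⊤ := Submodule.eq_top_of_finrank_eq (by rw [h8]; simp)
  have e0 : (Pi.single 0 1 : V8) ∈ Λ := by rw [htop]; trivial
  have e1 : (Pi.single 1 1 : V8) ∈ Λ := by rw [htop]; trivial
  have e2 : (Pi.single 2 1 : V8) ∈ Λ := by rw [htop]; trivial
  have e3 : (Pi.single 3 1 : V8) ∈ Λ := by rw [htop]; trivial
  have e4 : (Pi.single 4 1 : V8) ∈ Λ := by rw [htop]; trivial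
  have e5 : (Pi.single 5 1 : V8) ∈ Λ := by rw [htop]; trivial
  have e6 : (Pi.single 6 1 : V8) ∈ Λ := by rw [htop]; trivial
  obtain ⟨J, hJ, hs, hc⟩ := glue (x := x) (Λ := Λ) (J0 := {.z1, .zl, .z8, .zab})
    (J1 := {.w1, .wl, .wy, .w8, .wab, .wf7}) (J2 := {.v2, .vl, .v8, .vb})
    (J3 := {.x2, .xl, .x1})
    (by decide) (by decide) (by decide) (by decide)
    (by
      intro p q r s _ _ _ _ H
      have k0 := H _ e0
      have k1 := H _ e1
      have k3 := H _ e3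
      have k6 := H _ e6
      simp at k0 k1 k3 k6
      refine ⟨k0, k1, ?_, k3⟩
      rw [k0] at k6
      linarith)
    (by
      intro p q r s t u _ _ _ _ _ _ H
      have k0 := H _ e0
      have k1 := H _ e1
      have k3 := H _ e3
      have k4 := H _ e4
      have k5 := H _ e5
      have k6 := H _ e6
      simp at k0 k1 k3 k4 k5 k6
      refine ⟨k0, k1, k4, ?_, ?_, k5⟩
      · rw [k4] at k6
        linarith
      · rw [k4] at k3
        linarith)
    (by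
      intro p q r s _ _ _ _ H
      have k2 := H _ e2
      have k3 := H _ e3
      have k4 := H _ e4
      have k6 := H _ e6
      simp at k2 k3 k4 k6
      refine ⟨k3, ?_, k6, k2⟩
      rw [k3] at k4
      linarith)
    (by
      intro p q r _ _ _ H
      have k2 := H _ e2
      have k4 := H _ e4
      have k5 := H _ e5
      simp at k2 k4 k5
      refine ⟨?_, k4, k2⟩
      rw [k4] at k5
      linarith) Pr.ht
  refine ⟨J, hJ, ?_, ?_⟩
  · rw [hs, h8, s0f, s1f, s2f, s3f]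
    have := h.i8
    omega
  · rw [hc, h8]
    decide

/-- the equation of `Λ` in dimension 7 -/
theorem eq_7 {Λ : Submodule ℚ V8} (h7 : finrank ℚ Λ = 7)
    (key : ∀ φ : V8 →ₗ[ℚ] ℚ, (∀ v ∈ Λ, φ v = 0) →
        cf φ 0 = 0 ∧ cf φ 1 = 0 ∧ cf φ 2 = 0 ∧ cf φ 6 = 0 ∧ cf φ 7 = 0) :
    ∃ α β γ : ℚ, (α ≠ 0 ∨ β ≠ 0 ∨ γ ≠ 0) ∧ (![0, 0, 0, β, -α, 0, 0, 0] : V8) ∈ Λ ∧
      (![0, 0, 0, γ, 0, -α, 0, 0] : V8) ∈ Λ ∧ (![0, 0, 0, 0, γ, -β, 0, 0] : V8) ∈ Λ := by
  have hlt : Λ < ⊤ := by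
    rw [lt_top_iff_ne_top]
    rintro rfl
    rw [finrank_top] at h7
    simp at h7
  obtain ⟨φ, hφ, hle⟩ := Submodule.exists_le_ker_of_lt_top Λ hlt
  have hk := Module.Dual.finrank_ker_add_one_of_ne_zero (f := φ) hφ
  have heq : Λ = LinearMap.ker φ :=
    Submodule.eq_of_le_of_finrank_eq hle (by
      simp at hk
      omega)
  obtain ⟨c0', c1', c2', c6', c7'⟩ := key φ fun v hv => hle hv
  refine ⟨cf φ 3, cf φ 4, cf φ 5, ?_, ?_, ?_, ?_⟩
  · by_contra hcon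
    push Not at hcon
    obtain ⟨m1, m2, m3⟩ := hcon
    apply hφ
    ext v
    simp only [LinearMap.zero_apply, LinearMap.comp_apply, LinearMap.coe_single]
    rw [apply_cf, c0', c1', c2', c6', c7', m1, m2, m3]
    ring
  · rw [heq, LinearMap.mem_ker, apply_cf, c0', c1', c2', c6', c7']
    simp only [Matrix.cons_val]
    ring
  · rw [heq, LinearMap.mem_ker, apply_cf, c0', c1', c2', c6', c7']
    simp only [Matrix.cons_val]
    ring
  · rw [heq, LinearMap.mem_ker, apply_cf, c0', c1', c2', c6', c7']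
    simp only [Matrix.cons_val]
    ring

section seven

variable {Pr : Par} {n a b v2 v1 x2 x1 : ℕ} (h : Hts Pr n a b v2 v1 x2 x1) (x : ℚ)
  (Λ : Submodule ℚ V8) (h7 : finrank ℚ Λ = 7) (e0 : (Pi.single 0 1 : V8) ∈ Λ)
  (e1 : (Pi.single 1 1 : V8) ∈ Λ) (e2 : (Pi.single 2 1 : V8) ∈ Λ)
  (e6 : (Pi.single 6 1 : V8) ∈ Λ) {α β γ : ℚ}
  (a1 : (![0, 0, 0, β, -α, 0, 0, 0] : V8) ∈ Λ) (a2 : (![0, 0, 0, γ, 0, -α, 0, 0] : V8) ∈ Λ)
  (a3 : (![0, 0, 0, 0, γ, -β, 0, 0] : V8) ∈ Λ)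
  {J1 : Finset Gp} (hc1 : ∀ g ∈ J1, g.cusp = 1) (ii1 : I1 Λ J1)
  (hs1 : 3 * n + 2 * b ≤ ∑ g ∈ J1, Pr.ht g) (hcard1 : J1.card = 5)

include h h7 e0 e1 e2 e6 hc1 ii1 hs1 hcard1

include a1 a2 a3 in
theorem table_7a (hcase : α - β ≠ 0 ∨ α + γ ≠ 0) (hab : α ≠ 0 ∨ β ≠ 0) :
    ∃ J : Finset Gp, Ind x Λ J ∧ finrank ℚ Λ * Pr.D0 ≤ ∑ g ∈ J, Pr.ht g ∧
      finrank ℚ Λ ≤ J.card := by
  obtain ⟨J, hJ, hs, hc⟩ := glue (x := x) (Λ := Λ) (J0 := {.z1, .zl, .z8})
    (J1 := J1) (J2 := {.v2, .v8, .vb}) (J3 := {.x2, .x1}) (by decide)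
    hc1 (by decide) (by decide) (i0_a e0 e1 e6) ii1 (i2_7a e2 e6 a1 a2 hcase)
    (i3_7a e2 a2 a3 hab) Pr.ht
  refine ⟨J, hJ, ?_, ?_⟩
  · rw [hs, h7, s0a, s2a, s3a]
    have := h.i7a
    have := h.hz1
    have := h.hzl
    have := h.hz8
    have := h.hv2
    have := h.hv8
    have := h.hvb
    have := h.hx2
    have := h.hx1
    omega
  · rw [hc, h7, hcard1]
    decide

include a1 a2 a3 in
theorem table_7b (hcase : α - β ≠ 0 ∨ α + γ ≠ 0) (hg : γ + β ≠ 0) :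
    ∃ J : Finset Gp, Ind x Λ J ∧ finrank ℚ Λ * Pr.D0 ≤ ∑ g ∈ J, Pr.ht g ∧
      finrank ℚ Λ ≤ J.card := by
  obtain ⟨J, hJ, hs, hc⟩ := glue (x := x) (Λ := Λ) (J0 := {.z1, .zl, .z8})
    (J1 := J1) (J2 := {.v2, .v8, .vb}) (J3 := {.xl, .x1}) (by decide)
    hc1 (by decide) (by decide) (i0_a e0 e1 e6) ii1 (i2_7a e2 e6 a1 a2 hcase)
    (i3_7b e2 a3 hg) Pr.ht
  refine ⟨J, hJ, ?_, ?_⟩
  · rw [hs, h7, s0a, s2a, s3b]
    have := h.i7b
    have := h.hz1
    have := h.hzl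
    have := h.hz8
    have := h.hv2
    have := h.hv8
    have := h.hvb
    have := h.hxl
    have := h.hx1
    omega
  · rw [hc, h7, hcard1]
    decide

include a1 a2 in
theorem table_7c (hα0 : α ≠ 0) (hβ0 : β ≠ 0) :
    ∃ J : Finset Gp, Ind x Λ J ∧ finrank ℚ Λ * Pr.D0 ≤ ∑ g ∈ J, Pr.ht g ∧
      finrank ℚ Λ ≤ J.card := by
  obtain ⟨J, hJ, hs, hc⟩ := glue (x := x) (Λ := Λ) (J0 := {.z1, .zl, .z8, .zab})
    (J1 := J1) (J2 := {.vl, .v8, .vb}) (J3 := {.x2, .xl, .x1}) (by decide)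
    hc1 (by decide) (by decide) (i0_full e0 e1 e6 β (-α) 0 hβ0 a1) ii1
    (i2_7b e2 e6 a1 hα0) (i3_7c e2 a1 a2 hα0) Pr.ht
  refine ⟨J, hJ, ?_, ?_⟩
  · rw [hs, h7, s0f, s2b, s3f]
    have := h.i7c
    have := h.hz1
    have := h.hzl
    have := h.hz8
    have := h.hzab
    have := h.hvl
    have := h.hv8
    have := h.hvb
    have := h.hx2
    have := h.hxl
    have := h.hx1
    omega
  · rw [hc, h7, hcard1]
    decide

end seven

/-- dimension 7 -/
theorem table_7 {Pr : Par} {n a b v2 v1 x2 x1 : ℕ} (h : Hts Pr n a b v2 v1 x2 x1) (x : ℚ)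
    (Λ : Submodule ℚ V8) (h7 : finrank ℚ Λ = 7) (e0 : (Pi.single 0 1 : V8) ∈ Λ)
    (e1 : (Pi.single 1 1 : V8) ∈ Λ) (e2 : (Pi.single 2 1 : V8) ∈ Λ)
    (e6 : (Pi.single 6 1 : V8) ∈ Λ) (key : ∀ φ : V8 →ₗ[ℚ] ℚ, (∀ v ∈ Λ, φ v = 0) →
        cf φ 0 = 0 ∧ cf φ 1 = 0 ∧ cf φ 2 = 0 ∧ cf φ 6 = 0 ∧ cf φ 7 = 0) :
    ∃ J : Finset Gp, Ind x Λ J ∧ finrank ℚ Λ * Pr.D0 ≤ ∑ g ∈ J, Pr.ht g ∧
      finrank ℚ Λ ≤ J.card := by
  obtain ⟨α, β, γ, hn, a1, a2, a3⟩ := eq_7 h7 key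
  obtain ⟨J1, hc1, ii1, hs1, hcard1⟩ := i1_7 e0 e1 e6 a1 a2 a3 hn (f := Pr.ht) h.hw1 h.hwl h.hwy
    h.hw8 h.hwab h.hwf7
  by_cases hcase : α - β ≠ 0 ∨ α + γ ≠ 0
  · by_cases hab : α ≠ 0 ∨ β ≠ 0
    · exact table_7a h x Λ h7 e0 e1 e2 e6 a1 a2 a3 hc1 ii1 hs1 hcard1 hcase hab
    · push Not at hab
      refine table_7b h x Λ h7 e0 e1 e2 e6 a1 a2 a3 hc1 ii1 hs1 hcard1 hcase ?_
      rcases hn with h | h | h
      · exact absurd hab.1 h
      · exact absurd hab.2 h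
      · rw [hab.2, add_zero]
        exact h
  · push Not at hcase
    have hα0 : α ≠ 0 := by
      intro h0
      have m1 : β = 0 := by linarith [hcase.1]
      have m2 : γ = 0 := by linarith [hcase.2]
      rcases hn with h | h | h
      · exact h h0
      · exact h m1
      · exact h m2
    have hβ0 : β ≠ 0 := by
      intro h0
      exact hα0 (by linarith [hcase.1])
    exact table_7c h x Λ h7 e0 e1 e2 e6 a1 a2 hc1 ii1 hs1 hcard1 hα0 hβ0

/-- the table in dimension at least 6 -/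
theorem table_ge6 {Pr : Par} {n a b v2 v1 x2 x1 : ℕ} (h : Hts Pr n a b v2 v1 x2 x1) (x : ℚ)
    (Λ : Submodule ℚ V8) (hS : Sta Λ) (hr : 6 ≤ finrank ℚ Λ) :
    ∃ J : Finset Gp, Ind x Λ J ∧ finrank ℚ Λ * Pr.D0 ≤ ∑ g ∈ J, Pr.ht g ∧
      finrank ℚ Λ ≤ J.card := by
  have h8 : finrank ℚ Λ ≤ 8 := by
    have := Submodule.finrank_le Λ
    simpa using this
  rcases alt hS hr with ⟨h6, hU⟩ | ⟨e0, e1, e2, e6, _, key⟩
  · exact table_6i h x Λ h6 hU
  · by_cases h6 : finrank ℚ Λ = 6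
    · exact table_6ii h x Λ h6 e0 e1 e2 e6
    by_cases h7 : finrank ℚ Λ = 7
    · exact table_7 h x Λ h7 e0 e1 e2 e6 key
    exact table_8 h x Λ (by omega)

end Vale.Agent.P030.H200
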